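import Mathlib

/-!
Local rings (not necessarily commutative): elements outside the Jacobson radical are units.
Minimal presentations of finitely generated modules.
-/

universe u

namespace Vale.Agent.Lib.P195

section LocalRing

variable {R : Type u} [Ring R] [IsLocalRing R]

theorem isUnit_of_left_inv {w r : R} (h : w * r = 1) : IsUnit r := by
  have he : (r * w) * (r * w) = r * w := by
    calc (r * w) * (r * w) = r * (w * r) * w := by simp only [mul_assoc]
      _ = r * w := by rw [h, mul_one]
  rcases IsLocalRing.isUnit_or_isUnit_of_add_one (add_sub_cancel (r * w) 1) with h1 | h1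
  · have h2 : r * w = 1 := by
      obtain ⟨e, he'⟩ := h1
      have h3 : (e : R) * e = e := by rw [he']; exact he
      have h4 := congrArg (fun x => (↑e⁻¹ : R) * x) h3
      simp only [← mul_assoc, Units.inv_mul, one_mul] at h4
      rw [← he']; exact h4
    exact ⟨⟨r, w, h2, h⟩, rfl⟩
  · have h2 : r * w = 0 := by
      obtain ⟨f, hf⟩ := h1
      have h3 : (f : R) * (r * w) = 0 := by rw [hf, sub_mul, one_mul, he, sub_self]
      have h4 := congrArg (fun x => (↑f⁻¹ : R) * x) h3
      simpa [← mul_assoc] using h4
    have hr : r = 0 := by
      calc r = r * (w * r) := by rw [h, mul_one]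
        _ = (r * w) * r := by rw [mul_assoc]
        _ = 0 := by rw [h2, zero_mul]
    rw [hr, mul_zero] at h
    exact absurd h zero_ne_one

/-- In a local ring every element outside the Jacobson radical is a unit. -/
theorem isUnit_of_notMem_jacobson {r : R} (h : r ∉ Ring.jacobson R) : IsUnit r := by
  rw [Ring.jacobson_eq_sInf_isMaximal, Submodule.mem_sInf] at h
  push Not at h
  obtain ⟨m, hm, hrm⟩ := h
  have hm' : Ideal.IsMaximal m := hm
  obtain ⟨b, a, ha, hab⟩ := hm'.exists_inv hrm
  rcases IsLocalRing.isUnit_or_isUnit_of_add_one hab with h1 | h1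
  · obtain ⟨e, he⟩ := h1
    have : (↑e⁻¹ * b) * r = 1 := by rw [mul_assoc, ← he, Units.inv_mul]
    exact isUnit_of_left_inv this
  · exact absurd (Ideal.eq_top_of_isUnit_mem m ha h1) hm'.ne_top

theorem one_notMem_jacobson : (1 : R) ∉ Ring.jacobson R := by
  intro h
  have := Ring.jacobson_lt_top R
  exact this.ne ((Ideal.eq_top_iff_one _).mpr h)

end LocalRing

section MinPres

variable (R : Type u) [Ring R]

/-- A minimal presentation of `N`: a surjection from a finite free module all of whose
relations have coefficients in the Jacobson radical. -/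
structure MinPres (N : Type u) [AddCommGroup N] [Module R N] where
  /-- number of generators -/
  t : ℕ
  /-- the surjection -/
  π : (Fin t → R) →ₗ[R] N
  surj : Function.Surjective π
  min : ∀ v, π v = 0 → ∀ i, v i ∈ Ring.jacobson R

variable {R}
variable {N : Type u} [AddCommGroup N] [Module R N]

theorem exists_minPres_aux [IsLocalRing R] : ∀ (n : ℕ) (x : Fin n → N),
    Submodule.span R (Set.range x) = ⊤ → Nonempty (MinPres R N) := by
  intro n
  induction n with
  | zero =>
    intro x hx
    refine ⟨⟨0, Fintype.linearCombination R x, ?_, fun v _ i => i.elim0⟩⟩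
    rw [← LinearMap.range_eq_top, Fintype.range_linearCombination, hx]
  | succ m ih =>
    intro x hx
    by_cases hmin : ∀ v, Fintype.linearCombination R x v = 0 → ∀ i, v i ∈ Ring.jacobson R
    · refine ⟨⟨m + 1, Fintype.linearCombination R x, ?_, hmin⟩⟩
      rw [← LinearMap.range_eq_top, Fintype.range_linearCombination, hx]
    · push Not at hmin
      obtain ⟨v, hv, i, hi⟩ := hmin
      obtain ⟨e, he⟩ := isUnit_of_notMem_jacobson hi
      apply ih (fun j => x (i.succAbove j))
      -- x i lies in the span of the others
      have hsum : v i • x i + ∑ j, v (i.succAbove j) • x (i.succAbove j) = 0 := by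
        rw [← Fin.sum_univ_succAbove (fun j => v j • x j) i]
        simpa [Fintype.linearCombination_apply] using hv
      have hxi : x i ∈ Submodule.span R (Set.range fun j => x (i.succAbove j)) := by
        have h1 : v i • x i = -∑ j, v (i.succAbove j) • x (i.succAbove j) :=
          eq_neg_of_add_eq_zero_left hsum
        have h2 : x i = (↑e⁻¹ : R) • (v i • x i) := by
          rw [← he, smul_smul, Units.inv_mul, one_smul]
        rw [h2, h1]
        apply Submodule.smul_mem
        apply Submodule.neg_mem
        apply Submodule.sum_mem
        intro j _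
        exact Submodule.smul_mem _ _ (Submodule.subset_span ⟨j, rfl⟩)
      rw [eq_top_iff, ← hx, Submodule.span_le]
      rintro _ ⟨j, rfl⟩
      rcases Fin.eq_self_or_eq_succAbove i j with h | ⟨j', h⟩
      · rw [h]; exact hxi
      · rw [h]; exact Submodule.subset_span ⟨j', rfl⟩

/-- Over a local ring every finitely generated module has a minimal presentation. -/
theorem exists_minPres [IsLocalRing R] [Module.Finite R N] : Nonempty (MinPres R N) := by
  obtain ⟨n, x, hx⟩ := Module.Finite.exists_fin (R := R) (M := N)
  exact exists_minPres_aux n x hx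

end MinPres

end Vale.Agent.Lib.P195
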