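import Mathlib
import Vale.Agent.Lib.P195.Local

/-!
Basic facts about minimal presentations: descent of maps, maps into modules killed by the
radical, the radical layer of a module.
-/

universe u

namespace Vale.Agent.Lib.P195

variable {R : Type u} [Ring R]
variable {N : Type u} [AddCommGroup N] [Module R N]
variable {X : Type u} [AddCommGroup X] [Module R X]

/-- The radical layer `J • N` of a module. -/
abbrev radSub (R : Type u) [Ring R] (N : Type u) [AddCommGroup N] [Module R N] : Submodule R N :=
  Ring.jacobson R • (⊤ : Submodule R N)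

/-- `J` kills the module. -/
def RadKills (R : Type u) [Ring R] (X : Type u) [AddCommGroup X] [Module R X] : Prop :=
  ∀ a ∈ Ring.jacobson R, ∀ x : X, a • x = 0

/-- `J * J` kills the module. -/
def RadSqKills (R : Type u) [Ring R] (X : Type u) [AddCommGroup X] [Module R X] : Prop :=
  ∀ a ∈ Ring.jacobson R, ∀ b ∈ Ring.jacobson R, ∀ x : X, a • b • x = 0

theorem apply_eq_sum {t : ℕ} (g : (Fin t → R) →ₗ[R] X) (v : Fin t → R) :
    g v = ∑ i, v i • g (Pi.single i 1) := by
  conv_lhs => rw [LinearMap.pi_apply_eq_sum_univ g v]
  refine Finset.sum_congr rfl fun i _ => ?_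
  congr 2
  ext j
  simp [Pi.single_apply, eq_comm]

/-- A linear map out of the free module sends vectors with radical coordinates into `J • X`. -/
theorem apply_mem_radSub {t : ℕ} (g : (Fin t → R) →ₗ[R] X) (v : Fin t → R)
    (hv : ∀ i, v i ∈ Ring.jacobson R) : g v ∈ radSub R X := by
  rw [apply_eq_sum g v]
  exact Submodule.sum_mem _ fun i _ => Submodule.smul_mem_smul (hv i) Submodule.mem_top

/-- A linear map from the free module to a module killed by the radical kills vectors with
radical coordinates. -/
theorem apply_eq_zero_of_radKills {t : ℕ} (g : (Fin t → R) →ₗ[R] X) (hX : RadKills R X)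
    (v : Fin t → R) (hv : ∀ i, v i ∈ Ring.jacobson R) : g v = 0 := by
  rw [apply_eq_sum g v]
  exact Finset.sum_eq_zero fun i _ => hX _ (hv i) _

namespace MinPres

variable (p : MinPres R N)

/-- Descent of a map vanishing on the relations. -/
theorem descend (g : (Fin p.t → R) →ₗ[R] X) (h : ∀ v, p.π v = 0 → g v = 0) :
    ∃ f : N →ₗ[R] X, ∀ v, f (p.π v) = g v := by
  have hle : LinearMap.ker p.π ≤ LinearMap.ker g := fun v hv => h v hv
  refine ⟨(Submodule.liftQ (LinearMap.ker p.π) g hle) ∘ₗ
    (p.π.quotKerEquivOfSurjective p.surj).symm.toLinearMap, fun v => ?_⟩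
  have : (p.π.quotKerEquivOfSurjective p.surj).symm (p.π v) =
      Submodule.Quotient.mk v := by
    rw [LinearEquiv.symm_apply_eq]
    rfl
  simp [this]

/-- Elements of the kernel of a minimal presentation are sent into the radical layer by any map
out of the free module. -/
theorem apply_ker_mem_radSub (g : (Fin p.t → R) →ₗ[R] X) (v : Fin p.t → R) (hv : p.π v = 0) :
    g v ∈ radSub R X :=
  apply_mem_radSub g v (p.min v hv)

/-- If `J^3 = 0` the kernel of a minimal presentation is killed by `J * J`. -/
theorem radSqKills_ker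
    (hJ : ∀ a ∈ Ring.jacobson R, ∀ b ∈ Ring.jacobson R, ∀ c ∈ Ring.jacobson R, a * b * c = 0) :
    RadSqKills R (LinearMap.ker p.π) := by
  intro a ha b hb x
  apply Subtype.ext
  ext i
  have hx := p.min x.1 x.2 i
  simp only [Submodule.coe_smul, Pi.smul_apply, smul_eq_mul, ZeroMemClass.coe_zero, Pi.zero_apply]
  rw [← mul_assoc]
  exact hJ a ha b hb _ hx

/-- Every element of the radical layer is the image of a vector with radical coordinates. -/
theorem exists_of_mem_radSub (n : N) (hn : n ∈ radSub R N) :
    ∃ w : Fin p.t → R, (∀ i, w i ∈ Ring.jacobson R) ∧ p.π w = n := by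
  refine Submodule.smul_induction_on hn ?_ ?_
  · intro a ha m _
    obtain ⟨u, rfl⟩ := p.surj m
    refine ⟨a • u, fun i => ?_, by simp⟩
    simp only [Pi.smul_apply, smul_eq_mul]
    exact Ideal.mul_mem_right _ _ ha
  · rintro x y ⟨w, hw, rfl⟩ ⟨w', hw', rfl⟩
    exact ⟨w + w', fun i => Ideal.add_mem _ (hw i) (hw' i), by simp⟩

/-- The preimage of the radical layer is the set of vectors with radical coordinates. -/
theorem mem_radSub_iff (v : Fin p.t → R) :
    p.π v ∈ radSub R N ↔ ∀ i, v i ∈ Ring.jacobson R := by
  constructor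
  · intro h
    obtain ⟨w, hw, hwv⟩ := p.exists_of_mem_radSub _ h
    have hker : p.π (v - w) = 0 := by rw [map_sub, hwv, sub_self]
    intro i
    have := p.min _ hker i
    have h2 : v i = (v - w) i + w i := by simp
    rw [h2]
    exact Ideal.add_mem _ this (hw i)
  · intro h
    exact apply_mem_radSub p.π v h

end MinPres

theorem radKills_radSub (hN : RadSqKills R N) : RadKills R (radSub R N) := by
  intro a ha x
  apply Subtype.ext
  have hx := x.2
  simp only [Submodule.coe_smul, ZeroMemClass.coe_zero]
  refine Submodule.smul_induction_on hx ?_ ?_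
  · intro b hb m _
    exact hN a ha b hb m
  · intro y z hy hz
    rw [smul_add, hy, hz, add_zero]

theorem radKills_quot : RadKills R (N ⧸ radSub R N) := by
  intro a ha x
  obtain ⟨n, rfl⟩ := Submodule.Quotient.mk_surjective _ x
  rw [← Submodule.Quotient.mk_smul, Submodule.Quotient.mk_eq_zero]
  exact Submodule.smul_mem_smul ha Submodule.mem_top

end Vale.Agent.Lib.P195
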