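import Mathlib
import Vale.Agent.Lib.P195.Pres

/-!
Minimal projective presentations (projective covers) of finitely generated modules over an
Artinian ring, and basic facts about the radical layer.
-/

universe u

namespace Vale.Agent.Lib.P195

variable {R : Type u} [Ring R]
variable {N X : Type u} [AddCommGroup N] [Module R N] [AddCommGroup X] [Module R X]

/-- A module killed by the radical of a semiprimary ring is semisimple. -/
theorem isSemisimpleModule_of_radKills [IsSemiprimaryRing R] (h : RadKills R X) :
    IsSemisimpleModule R X := by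
  have h' : Module.IsTorsionBySet R X (Ring.jacobson R : Set R) := by
    intro x a
    exact h a.1 a.2 x
  let _ := h'.module
  exact (h'.semilinearMap.isSemisimpleModule_iff_of_bijective Function.bijective_id).2
    inferInstance

theorem map_mem_radSub (g : N →ₗ[R] X) {v : N} (hv : v ∈ radSub R N) : g v ∈ radSub R X := by
  refine Submodule.smul_induction_on hv ?_ ?_
  · intro a ha m _
    rw [map_smul]
    exact Submodule.smul_mem_smul ha Submodule.mem_top
  · intro y z hy hz
    rw [map_add]
    exact Submodule.add_mem _ hy hz

theorem map_eq_zero_of_radKills (g : N →ₗ[R] X) (hX : RadKills R X) {v : N}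
    (hv : v ∈ radSub R N) : g v = 0 := by
  refine Submodule.smul_induction_on hv ?_ ?_
  · intro a ha m _
    rw [map_smul]
    exact hX a ha _
  · intro y z hy hz
    rw [map_add, hy, hz, add_zero]

/-- Nakayama for a radical with vanishing cube. -/
theorem subsingleton_of_radSub_eq_top
    (hJ : ∀ a ∈ Ring.jacobson R, ∀ b ∈ Ring.jacobson R, ∀ c ∈ Ring.jacobson R, a * b * c = 0)
    (h : radSub R X = ⊤) : Subsingleton X := by
  have h1 : ∀ z : X, ∀ a ∈ Ring.jacobson R, ∀ b ∈ Ring.jacobson R, a • b • z = 0 := by
    intro z
    have hz : z ∈ radSub R X := h ▸ Submodule.mem_top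
    refine Submodule.smul_induction_on hz ?_ ?_
    · intro c hc w _ a ha b hb
      rw [smul_smul, smul_smul, hJ a ha b hb c hc, zero_smul]
    · intro y y' hy hy' a ha b hb
      rw [smul_add, smul_add, hy a ha b hb, hy' a ha b hb, add_zero]
  have h2 : ∀ y : X, ∀ a ∈ Ring.jacobson R, a • y = 0 := by
    intro y
    have hy : y ∈ radSub R X := h ▸ Submodule.mem_top
    refine Submodule.smul_induction_on hy ?_ ?_
    · intro b hb z _ a ha
      exact h1 z a ha b hb
    · intro y y' hy hy' a ha
      rw [smul_add, hy a ha, hy' a ha, add_zero]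
  have h3 : ∀ x : X, x = 0 := by
    intro x
    have hx : x ∈ radSub R X := h ▸ Submodule.mem_top
    refine Submodule.smul_induction_on hx ?_ ?_
    · intro a ha y _
      exact h2 y a ha
    · intro y y' hy hy'
      rw [hy, hy', add_zero]
  exact ⟨fun a b => by rw [h3 a, h3 b]⟩

/-- A minimal projective presentation of `N`: a surjection from a finitely generated projective
module whose kernel lies in the radical layer. -/
structure ProjPres (R : Type u) [Ring R] (N : Type u) [AddCommGroup N] [Module R N] where
  /-- the projective module -/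
  P : Type u
  [acg : AddCommGroup P]
  [mod : Module R P]
  /-- the surjection -/
  π : P →ₗ[R] N
  surj : Function.Surjective π
  proj : Module.Projective R P
  fin : Module.Finite R P
  min : LinearMap.ker π ≤ radSub R P

attribute [instance] ProjPres.acg ProjPres.mod ProjPres.proj ProjPres.fin

/-- Existence of projective covers over a ring that is Artinian and Noetherian. -/
theorem exists_projPres [IsArtinianRing R] [IsNoetherianRing R] [Module.Finite R N] :
    Nonempty (ProjPres R N) := by
  obtain ⟨t, π₀, hπ₀⟩ := Module.Finite.exists_fin' R N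
  -- a minimal submodule of the free module mapping onto `N`
  obtain ⟨F', hF', hmin⟩ := IsArtinian.set_has_minimal
    {F' : Submodule R (Fin t → R) | Submodule.map π₀ F' = ⊤}
    ⟨⊤, by simp [Submodule.map_top, LinearMap.range_eq_top.mpr hπ₀]⟩
  have hF'' : Submodule.map π₀ F' = ⊤ := hF'
  let π : F' →ₗ[R] N := π₀ ∘ₗ F'.subtype
  have hsurj : Function.Surjective π := by
    intro n
    have hn : n ∈ Submodule.map π₀ F' := hF'' ▸ Submodule.mem_top
    obtain ⟨x, hx, rfl⟩ := hn
    exact ⟨⟨x, hx⟩, rfl⟩
  -- the kernel is superfluous
  have hsup : ∀ Y : Submodule R F', Y ⊔ LinearMap.ker π = ⊤ → Y = ⊤ := by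
    intro Y hY
    have h1 : Submodule.map π Y = ⊤ := by
      have h2 : Submodule.map π (Y ⊔ LinearMap.ker π) = ⊤ := by
        rw [hY, Submodule.map_top, LinearMap.range_eq_top.mpr hsurj]
      rw [Submodule.map_sup] at h2
      have h3 : Submodule.map π (LinearMap.ker π) = ⊥ := by
        rw [eq_bot_iff]
        rintro _ ⟨x, hx, rfl⟩
        exact (Submodule.mem_bot R).mpr hx
      rw [h3, sup_bot_eq] at h2
      exact h2
    have h4 : Submodule.map π₀ (Submodule.map F'.subtype Y) = ⊤ := by
      rw [← Submodule.map_comp]
      exact h1
    have h5 : Submodule.map F'.subtype Y ≤ F' := Submodule.map_subtype_le F' Y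
    have h6 : Submodule.map F'.subtype Y = F' := by
      by_contra hne
      exact hmin _ h4 (lt_of_le_of_ne h5 hne)
    rw [eq_top_iff]
    intro x _
    have hx : (x : Fin t → R) ∈ Submodule.map F'.subtype Y := by
      rw [h6]
      exact x.2
    obtain ⟨y, hy, hyx⟩ := hx
    have : y = x := Subtype.ext hyx
    rw [← this]
    exact hy
  -- the kernel lies in the radical layer
  have hminP : LinearMap.ker π ≤ radSub R F' := by
    have : IsSemisimpleModule R (F' ⧸ radSub R F') := isSemisimpleModule_of_radKills radKills_quot
    obtain ⟨C, hC⟩ := exists_isCompl (Submodule.map (radSub R F').mkQ (LinearMap.ker π))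
    have hCtop : Submodule.comap (radSub R F').mkQ C = ⊤ := by
      apply hsup
      rw [eq_top_iff]
      intro p _
      have hp : (radSub R F').mkQ p ∈
          Submodule.map (radSub R F').mkQ (LinearMap.ker π) ⊔ C := by
        rw [hC.sup_eq_top]
        exact Submodule.mem_top
      obtain ⟨y, hy, c, hc, hyc⟩ := Submodule.mem_sup.mp hp
      obtain ⟨k, hk, rfl⟩ := hy
      have hpk : p - k ∈ Submodule.comap (radSub R F').mkQ C := by
        rw [Submodule.mem_comap, map_sub, ← hyc, add_sub_cancel_left]
        exact hc
      have : p = (p - k) + k := by abel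
      rw [this]
      exact Submodule.add_mem _ (Submodule.mem_sup_left hpk) (Submodule.mem_sup_right hk)
    have hC' : C = ⊤ := by
      rw [eq_top_iff]
      intro y _
      obtain ⟨p, rfl⟩ := Submodule.mkQ_surjective _ y
      have : p ∈ Submodule.comap (radSub R F').mkQ C := hCtop ▸ Submodule.mem_top
      exact this
    have hbot : Submodule.map (radSub R F').mkQ (LinearMap.ker π) = ⊥ := by
      have := hC.inf_eq_bot
      rwa [hC', inf_top_eq] at this
    intro x hx
    have hx' : (radSub R F').mkQ x ∈ Submodule.map (radSub R F').mkQ (LinearMap.ker π) :=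
      Submodule.mem_map_of_mem hx
    rw [hbot, Submodule.mem_bot, Submodule.mkQ_apply, Submodule.Quotient.mk_eq_zero] at hx'
    exact hx'
  -- projectivity: the submodule is a retract of the free module
  obtain ⟨g₁, hg₁⟩ := Module.projective_lifting_property π π₀ hsurj
  let e : F' →ₗ[R] F' := g₁ ∘ₗ F'.subtype
  have hπe : ∀ x, π (e x) = π x := by
    intro x
    exact LinearMap.congr_fun hg₁ (x : Fin t → R)
  have hesurj : Function.Surjective e := by
    rw [← LinearMap.range_eq_top]
    apply hsup
    rw [eq_top_iff]
    intro x _
    have hx : x - e x ∈ LinearMap.ker π := by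
      rw [LinearMap.mem_ker, map_sub, hπe, sub_self]
    have : x = e x + (x - e x) := by abel
    rw [this]
    exact Submodule.add_mem _ (Submodule.mem_sup_left (LinearMap.mem_range_self e x))
      (Submodule.mem_sup_right hx)
  have heinj : Function.Injective e :=
    OrzechProperty.injective_of_surjective_endomorphism e hesurj
  let E := LinearEquiv.ofBijective e ⟨heinj, hesurj⟩
  have hproj : Module.Projective R F' := by
    refine Module.Projective.of_split (F'.subtype ∘ₗ E.symm.toLinearMap) g₁ ?_
    ext x
    have : g₁ ((E.symm x : F') : Fin t → R) = E (E.symm x) := rfl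
    simp only [LinearMap.comp_apply, LinearEquiv.coe_coe, Submodule.subtype_apply,
      LinearMap.id_coe, id_eq]
    rw [this, LinearEquiv.apply_symm_apply]
  exact ⟨⟨F', π, hsurj, hproj, inferInstance, hminP⟩⟩

end Vale.Agent.Lib.P195
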