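import Mathlib

/-!
The arithmetic heart of the argument: the numerical relations between Betti numbers and lengths
are contradictory.
-/

namespace Vale.Agent.Lib.P195

theorem eq_of_mul_eq_sq (L a b : ℕ) (ha : 0 < a) (h : L * a * b = (a + b) ^ 2) : a = b := by
  have hg : 0 < Nat.gcd a b := Nat.gcd_pos_of_pos_left b ha
  obtain ⟨d, a', b', hd, hcop, rfl, rfl⟩ := Nat.exists_coprime' hg
  have h' : L * a' * b' = (a' + b') ^ 2 := by
    have hd2 : 0 < d * d := Nat.mul_pos hd hd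
    apply Nat.eq_of_mul_eq_mul_left hd2
    calc d * d * (L * a' * b') = L * (a' * d) * (b' * d) := by ring
      _ = (a' * d + b' * d) ^ 2 := h
      _ = d * d * (a' + b') ^ 2 := by ring
  have h1 : a' = 1 := by
    have hdvd : a' ∣ (a' + b') ^ 2 := ⟨L * b', by rw [← h']; ring⟩
    have hc : Nat.Coprime a' ((a' + b') ^ 2) := by
      apply Nat.Coprime.pow_right
      simpa using hcop
    exact Nat.Coprime.eq_one_of_dvd hc hdvd
  have h2 : b' = 1 := by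
    have hdvd : b' ∣ (a' + b') ^ 2 := ⟨L * a', by rw [← h']; ring⟩
    have hc : Nat.Coprime b' ((a' + b') ^ 2) := by
      apply Nat.Coprime.pow_right
      simpa using hcop.symm
    exact Nat.Coprime.eq_one_of_dvd hc hdvd
  rw [h1, h2]

theorem cancel_rel (t σ τ δ t' : ℕ) (h : t * (σ + τ * δ) = t * σ + t' * σ) :
    δ * τ * t = σ * t' := by
  have h' : t * σ + δ * τ * t = t * σ + σ * t' := by
    calc t * σ + δ * τ * t = t * (σ + τ * δ) := by ring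
      _ = t * σ + t' * σ := h
      _ = t * σ + σ * t' := by ring
  exact Nat.add_left_cancel h'

theorem arith_contra (δ Λ t1 t2 t3 t4 t5 σ1 σ2 σ3 n1 n2 n3 m L : ℕ)
    (hδ : 0 < δ) (ht1 : 0 < t1) (ht2 : 0 < t2) (ht3 : 0 < t3) (ht4 : 0 < t4)
    (hσ1 : σ1 = m * δ) (hΛ : Λ = L * δ)
    (hn1 : n1 = σ1 + t1 * δ) (hn2 : n2 = σ2 + t2 * δ) (hn3 : n3 = σ3 + t3 * δ)
    (R1 : t2 * n1 = t2 * σ1 + t3 * σ1)
    (R2 : t3 * n1 = t3 * σ1 + t4 * σ1)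
    (R4 : t4 * n1 = t4 * σ1 + t5 * σ1)
    (R3 : t3 * n2 = t3 * σ2 + t4 * σ2)
    (R5 : t4 * n3 = t4 * σ3 + t5 * σ3)
    (E : t2 * Λ = n3 + n2)
    (C : t2 * σ2 + 1 + t3 * σ2 ≤ t2 * n2) : False := by
  subst hn1 hn2 hn3 hΛ
  have a1 : δ * t1 * t2 = σ1 * t3 := cancel_rel _ _ _ _ _ R1
  have a2 : δ * t1 * t3 = σ1 * t4 := cancel_rel _ _ _ _ _ R2
  have a4 : δ * t1 * t4 = σ1 * t5 := cancel_rel _ _ _ _ _ R4
  have a3 : δ * t2 * t3 = σ2 * t4 := cancel_rel _ _ _ _ _ R3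
  have a5 : δ * t3 * t4 = σ3 * t5 := cancel_rel _ _ _ _ _ R5
  have b1 : σ2 * t1 = σ1 * t2 := by
    have hpos : 0 < δ * t3 := Nat.mul_pos hδ ht3
    apply Nat.eq_of_mul_eq_mul_left hpos
    calc δ * t3 * (σ2 * t1) = σ2 * (δ * t1 * t3) := by ring
      _ = σ2 * (σ1 * t4) := by rw [a2]
      _ = σ1 * (σ2 * t4) := by ring
      _ = σ1 * (δ * t2 * t3) := by rw [a3]
      _ = δ * t3 * (σ1 * t2) := by ring
  have b2 : σ3 * t1 = σ1 * t3 := by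
    have hpos : 0 < δ * t4 := Nat.mul_pos hδ ht4
    apply Nat.eq_of_mul_eq_mul_left hpos
    calc δ * t4 * (σ3 * t1) = σ3 * (δ * t1 * t4) := by ring
      _ = σ3 * (σ1 * t5) := by rw [a4]
      _ = σ1 * (σ3 * t5) := by ring
      _ = σ1 * (δ * t3 * t4) := by rw [a5]
      _ = δ * t4 * (σ1 * t3) := by ring
  have c : t1 * (L * δ) * σ1 = (σ1 + δ * t1) ^ 2 := by
    apply Nat.eq_of_mul_eq_mul_left ht2
    calc t2 * (t1 * (L * δ) * σ1) = t1 * σ1 * (t2 * (L * δ)) := by ring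
      _ = t1 * σ1 * (σ3 + t3 * δ + (σ2 + t2 * δ)) := by rw [E]
      _ = σ1 * (σ3 * t1) + (δ * t1 * t3) * σ1 + σ1 * (σ2 * t1) + (δ * t1 * t2) * σ1 := by ring
      _ = σ1 * (σ1 * t3) + (δ * t1 * t3) * σ1 + σ1 * (σ1 * t2) + (δ * t1 * t2) * σ1 := by
        rw [b1, b2]
      _ = σ1 * (σ1 * t3) + δ * t1 * (σ1 * t3) + σ1 * (σ1 * t2) + (δ * t1 * t2) * σ1 := by
        ring
      _ = σ1 * (δ * t1 * t2) + δ * t1 * (δ * t1 * t2) + σ1 * (σ1 * t2) + (δ * t1 * t2) * σ1 := by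
        rw [← a1]
      _ = t2 * (σ1 + δ * t1) ^ 2 := by ring
  subst hσ1
  have d : t1 = m := by
    apply eq_of_mul_eq_sq L t1 m ht1
    have hpos : 0 < δ * δ := Nat.mul_pos hδ hδ
    apply Nat.eq_of_mul_eq_mul_left hpos
    calc δ * δ * (L * t1 * m) = t1 * (L * δ) * (m * δ) := by ring
      _ = (m * δ + δ * t1) ^ 2 := c
      _ = δ * δ * (t1 + m) ^ 2 := by ring
  subst d
  have e23 : t2 = t3 := by
    have hpos : 0 < δ * t1 := Nat.mul_pos hδ ht1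
    apply Nat.eq_of_mul_eq_mul_left hpos
    calc δ * t1 * t2 = t1 * δ * t3 := a1
      _ = δ * t1 * t3 := by ring
  subst e23
  have e2 : σ2 = δ * t2 := by
    apply Nat.eq_of_mul_eq_mul_left ht1
    calc t1 * σ2 = σ2 * t1 := by ring
      _ = t1 * δ * t2 := b1
      _ = t1 * (δ * t2) := by ring
  subst e2
  have hC : t2 * (δ * t2 + t2 * δ) = t2 * (δ * t2) + t2 * (δ * t2) := by ring
  omega

/-- The same contradiction for extended natural numbers that are known to be finite. -/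
theorem arith_contra_enat (δ Λ n1 n2 n3 σ1 σ2 σ3 : ℕ∞) (t1 t2 t3 t4 t5 m L : ℕ)
    (hΛtop : Λ ≠ ⊤) (hδtop : δ ≠ ⊤) (hn1top : n1 ≠ ⊤) (hn2top : n2 ≠ ⊤) (hn3top : n3 ≠ ⊤)
    (hσ1top : σ1 ≠ ⊤) (hσ2top : σ2 ≠ ⊤) (hσ3top : σ3 ≠ ⊤)
    (hδ : 0 < δ) (ht1 : 0 < t1) (ht2 : 0 < t2) (ht3 : 0 < t3) (ht4 : 0 < t4)
    (hσ1 : σ1 = m * δ) (hΛ : Λ = L * δ)
    (hn1 : n1 = σ1 + t1 * δ) (hn2 : n2 = σ2 + t2 * δ) (hn3 : n3 = σ3 + t3 * δ)
    (R1 : t2 * n1 = t2 * σ1 + t3 * σ1)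
    (R2 : t3 * n1 = t3 * σ1 + t4 * σ1)
    (R4 : t4 * n1 = t4 * σ1 + t5 * σ1)
    (R3 : t3 * n2 = t3 * σ2 + t4 * σ2)
    (R5 : t4 * n3 = t4 * σ3 + t5 * σ3)
    (E : t2 * Λ = n3 + n2)
    (C : t2 * σ2 + 1 + t3 * σ2 ≤ t2 * n2) : False := by
  lift δ to ℕ using hδtop
  lift Λ to ℕ using hΛtop
  lift n1 to ℕ using hn1top
  lift n2 to ℕ using hn2top
  lift n3 to ℕ using hn3top
  lift σ1 to ℕ using hσ1top
  lift σ2 to ℕ using hσ2top
  lift σ3 to ℕ using hσ3top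
  exact arith_contra δ Λ t1 t2 t3 t4 t5 σ1 σ2 σ3 n1 n2 n3 m L
    (by exact_mod_cast hδ) ht1 ht2 ht3 ht4 (by exact_mod_cast hσ1) (by exact_mod_cast hΛ)
    (by exact_mod_cast hn1) (by exact_mod_cast hn2) (by exact_mod_cast hn3)
    (by exact_mod_cast R1) (by exact_mod_cast R2) (by exact_mod_cast R4)
    (by exact_mod_cast R3) (by exact_mod_cast R5) (by exact_mod_cast E) (by exact_mod_cast C)

end Vale.Agent.Lib.P195
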