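import Mathlib
import Vale.Agent.Lib.P195.Pres

/-!
Length computations (over a central commutative ring `k`) for spaces of linear maps out of a
module with a minimal presentation.
-/

universe u

namespace Vale.Agent.Lib.P195

variable {k : Type*} [CommRing k] {R : Type u} [Ring R] [Algebra k R]
variable {X : Type u} [AddCommGroup X] [Module R X] [Module k X] [IsScalarTower k R X]
variable {Y : Type u} [AddCommGroup Y] [Module R Y] [Module k Y] [IsScalarTower k R Y]
variable {A B : Type u} [AddCommGroup A] [Module R A] [AddCommGroup B] [Module R B]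

/-- Precomposition as a `k`-linear map. -/
def preK (f : A →ₗ[R] B) : (B →ₗ[R] X) →ₗ[k] (A →ₗ[R] X) where
  toFun g := g ∘ₗ f
  map_add' _ _ := rfl
  map_smul' _ _ := rfl

/-- Postcomposition as a `k`-linear map. -/
def postK (f : X →ₗ[R] Y) : (A →ₗ[R] X) →ₗ[k] (A →ₗ[R] Y) where
  toFun g := f ∘ₗ g
  map_add' g g' := by ext a; simp
  map_smul' c g := by ext a; simp

@[simp] theorem preK_apply (f : A →ₗ[R] B) (g : B →ₗ[R] X) (a : A) :
    preK (k := k) f g a = g (f a) := rfl

@[simp] theorem postK_apply (f : X →ₗ[R] Y) (g : A →ₗ[R] X) (a : A) :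
    postK (k := k) f g a = f (g a) := rfl

theorem length_hom_free (t : ℕ) :
    Module.length k ((Fin t → R) →ₗ[R] X) = t * Module.length k X := by
  rw [← ((Pi.basisFun R (Fin t)).constr k (M' := X)).length_eq]
  simp

/-- If every map `A → X` lands in the submodule `S`, then `Hom(A, X)` and `Hom(A, S)` have the
same length. -/
theorem length_hom_of_forall_mem (S : Submodule R X)
    (h : ∀ f : A →ₗ[R] X, ∀ a, f a ∈ S) :
    Module.length k (A →ₗ[R] X) = Module.length k (A →ₗ[R] S) := by
  have hinj : Function.Injective (postK (k := k) (A := A) S.subtype) := by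
    intro f f' hff
    ext a
    exact congrArg (fun φ => φ a) hff
  have hsurj : Function.Surjective (postK (k := k) (A := A) S.subtype) := by
    intro f
    exact ⟨f.codRestrict S (h f), LinearMap.ext fun a => rfl⟩
  exact (LinearEquiv.ofBijective _ ⟨hinj, hsurj⟩).length_eq.symm

namespace MinPres

theorem length_hom (p : MinPres R A)
    (hdesc : ∀ g : (Fin p.t → R) →ₗ[R] X, ∀ v, p.π v = 0 → g v = 0) :
    Module.length k (A →ₗ[R] X) = p.t * Module.length k X := by
  rw [← length_hom_free (k := k) (R := R) p.t (X := X)]
  have hinj : Function.Injective (preK (k := k) (X := X) p.π) := by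
    intro f f' h
    ext n
    obtain ⟨v, rfl⟩ := p.surj n
    exact congrArg (fun φ => φ v) h
  have hsurj : Function.Surjective (preK (k := k) (X := X) p.π) := by
    intro g
    obtain ⟨f, hf⟩ := p.descend g (hdesc g)
    exact ⟨f, LinearMap.ext fun v => by simp [hf]⟩
  exact (LinearEquiv.ofBijective _ ⟨hinj, hsurj⟩).length_eq

theorem length_hom_radKills (p : MinPres R A) (hX : RadKills R X) :
    Module.length k (A →ₗ[R] X) = p.t * Module.length k X :=
  p.length_hom fun g v hv => apply_eq_zero_of_radKills g hX v (p.min v hv)

/-- The `Hom` exact sequence of a presentation, assuming every map out of the kernel extends. -/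
theorem length_hom_free_eq (p : MinPres R A)
    (hext : ∀ f : LinearMap.ker p.π →ₗ[R] X, ∃ g : (Fin p.t → R) →ₗ[R] X,
      ∀ v : LinearMap.ker p.π, g v = f v) :
    p.t * Module.length k X =
      Module.length k (A →ₗ[R] X) + Module.length k (LinearMap.ker p.π →ₗ[R] X) := by
  rw [← length_hom_free (k := k) (R := R) p.t (X := X)]
  have hinj : Function.Injective (preK (k := k) (X := X) p.π) := by
    intro f f' h
    ext n
    obtain ⟨v, rfl⟩ := p.surj n
    exact congrArg (fun φ => φ v) h
  have hsurj : Function.Surjective (preK (k := k) (X := X) (LinearMap.ker p.π).subtype) := by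
    intro f
    obtain ⟨g, hg⟩ := hext f
    exact ⟨g, LinearMap.ext fun v => by simp [hg]⟩
  have hex : Function.Exact (preK (k := k) (X := X) p.π)
      (preK (k := k) (X := X) (LinearMap.ker p.π).subtype) := by
    intro g
    constructor
    · intro hg
      have hg' : ∀ v, p.π v = 0 → g v = 0 := by
        intro v hv
        have := congrArg (fun φ => φ ⟨v, hv⟩) hg
        simpa using this
      obtain ⟨f, hf⟩ := p.descend g hg'
      exact ⟨f, LinearMap.ext fun v => by simp [hf]⟩
    · rintro ⟨f, rfl⟩
      ext v
      have hv : p.π v.1 = 0 := v.2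
      simp [hv]
  exact Module.length_eq_add_of_exact _ _ hinj hsurj hex

theorem length_ker_add (p : MinPres R X) :
    p.t * Module.length k R = Module.length k (LinearMap.ker p.π) + Module.length k X := by
  have h := Module.length_eq_add_of_exact ((LinearMap.ker p.π).subtype.restrictScalars k)
    (p.π.restrictScalars k) (Submodule.injective_subtype _) p.surj
    (LinearMap.exact_subtype_ker_map p.π)
  rw [← h]
  simp

theorem length_quot (p : MinPres R X) :
    Module.length k (X ⧸ radSub R X) = p.t * Module.length k (R ⧸ Ring.jacobson R) := by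
  let q : (Fin p.t → R) →ₗ[k] (X ⧸ radSub R X) :=
    ((radSub R X).mkQ ∘ₗ p.π).restrictScalars k
  let r : (Fin p.t → R) →ₗ[k] (Fin p.t → R ⧸ Ring.jacobson R) :=
    (LinearMap.pi fun i => (Ring.jacobson R).mkQ ∘ₗ LinearMap.proj i).restrictScalars k
  have hq : Function.Surjective q := (Submodule.mkQ_surjective _).comp p.surj
  have hr : Function.Surjective r := by
    intro y
    choose w hw using fun i => Submodule.mkQ_surjective (Ring.jacobson R) (y i)
    exact ⟨w, funext fun i => by simp [r, hw]⟩
  have hker : LinearMap.ker q = LinearMap.ker r := by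
    ext v
    simp only [LinearMap.mem_ker, q, r, LinearMap.coe_restrictScalars, LinearMap.comp_apply,
      Submodule.mkQ_apply, Submodule.Quotient.mk_eq_zero]
    rw [p.mem_radSub_iff, funext_iff]
    simp [Ideal.Quotient.eq_zero_iff_mem]
  have e1 := (q.quotKerEquivOfSurjective hq).length_eq
  have e2 := (r.quotKerEquivOfSurjective hr).length_eq
  have e3 := (Submodule.quotEquivOfEq _ _ hker).length_eq
  rw [← e1, e3, e2]
  simp

end MinPres

theorem length_eq_sub_add_quot (S : Submodule R X) :
    Module.length k X = Module.length k S + Module.length k (X ⧸ S) := by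
  have h1 : Function.Injective (S.subtype.restrictScalars k : S →ₗ[k] X) := by
    intro a b h
    exact Subtype.ext h
  have h2 : Function.Surjective (S.mkQ.restrictScalars k : X →ₗ[k] X ⧸ S) := by
    intro y
    obtain ⟨x, rfl⟩ := Submodule.mkQ_surjective S y
    exact ⟨x, rfl⟩
  have h3 : Function.Exact (S.subtype.restrictScalars k : S →ₗ[k] X)
      (S.mkQ.restrictScalars k : X →ₗ[k] X ⧸ S) := by
    intro x
    constructor
    · intro hx
      have hx' : x ∈ S := (Submodule.Quotient.mk_eq_zero S).mp hx
      exact ⟨⟨x, hx'⟩, rfl⟩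
    · rintro ⟨y, rfl⟩
      exact (Submodule.Quotient.mk_eq_zero S).mpr y.2
  exact Module.length_eq_add_of_exact _ _ h1 h2 h3

theorem length_eq_rad_add_quot :
    Module.length k X =
      Module.length k (radSub R X) + Module.length k (X ⧸ radSub R X) :=
  length_eq_sub_add_quot (k := k) (radSub R X)

end Vale.Agent.Lib.P195
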