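import Mathlib
import Vale.Agent.Lib.P195.Length

/-!
The two counting relations for modules killed by the square of the radical, the divisibility of
lengths by the length of the residue ring, and the nonvanishing of Betti numbers.
-/

universe u

namespace Vale.Agent.Lib.P195

variable {k : Type*} [CommRing k] {R : Type u} [Ring R] [Algebra k R]
variable {X : Type u} [AddCommGroup X] [Module R X] [Module k X] [IsScalarTower k R X]
variable {A : Type u} [AddCommGroup A] [Module R A]

/-- Maps out of the kernel of a minimal presentation that extend to the free module land in the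
radical layer. -/
theorem MinPres.ker_map_mem_radSub (p : MinPres R A)
    (h2 : ∀ f : LinearMap.ker p.π →ₗ[R] X, ∃ g : (Fin p.t → R) →ₗ[R] X,
      ∀ v : LinearMap.ker p.π, g v = f v)
    (f : LinearMap.ker p.π →ₗ[R] X) (x : LinearMap.ker p.π) : f x ∈ radSub R X := by
  obtain ⟨g, hg⟩ := h2 f
  rw [← hg x]
  exact p.apply_ker_mem_radSub g x.1 x.2

/-- Counting relation: if `J * J` kills `X`, all maps `A → X` land in `J • X`, and all maps from
the first syzygy of `A` to `X` extend to the free cover, then
`b₀(A) * length X = (b₀(A) + b₁(A)) * length (J • X)`. -/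
theorem relA (hX : RadSqKills R X) (p : MinPres R A) (p' : MinPres R (LinearMap.ker p.π))
    (h1 : ∀ f : A →ₗ[R] X, ∀ a, f a ∈ radSub R X)
    (h2 : ∀ f : LinearMap.ker p.π →ₗ[R] X, ∃ g : (Fin p.t → R) →ₗ[R] X,
      ∀ v : LinearMap.ker p.π, g v = f v) :
    p.t * Module.length k X =
      p.t * Module.length k (radSub R X) + p'.t * Module.length k (radSub R X) := by
  rw [p.length_hom_free_eq h2, length_hom_of_forall_mem _ h1,
    length_hom_of_forall_mem _ (p.ker_map_mem_radSub h2),
    p.length_hom_radKills (radKills_radSub hX), p'.length_hom_radKills (radKills_radSub hX)]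

/-- Window form of the counting relation along a chain of syzygies: the hypothesis on maps
`A → X` is replaced by the extension property one step earlier in the chain. -/
theorem relA' {B : Type u} [AddCommGroup B] [Module R B] (hX : RadSqKills R X)
    (p₀ : MinPres R B) (p : MinPres R (LinearMap.ker p₀.π)) (p' : MinPres R (LinearMap.ker p.π))
    (h1 : ∀ f : LinearMap.ker p₀.π →ₗ[R] X, ∃ g : (Fin p₀.t → R) →ₗ[R] X,
      ∀ v : LinearMap.ker p₀.π, g v = f v)
    (h2 : ∀ f : LinearMap.ker p.π →ₗ[R] X, ∃ g : (Fin p.t → R) →ₗ[R] X,
      ∀ v : LinearMap.ker p.π, g v = f v) :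
    p.t * Module.length k X =
      p.t * Module.length k (radSub R X) + p'.t * Module.length k (radSub R X) :=
  relA hX p p' (p₀.ker_map_mem_radSub h1) h2

/-- Counting inequality for self-maps: the identity is an endomorphism outside `Hom(X, J • X)`. -/
theorem count_end [IsLocalRing R] (hX : RadSqKills R X) (p : MinPres R X)
    (p' : MinPres R (LinearMap.ker p.π)) (ht : 0 < p.t)
    (h2 : ∀ f : LinearMap.ker p.π →ₗ[R] X, ∃ g : (Fin p.t → R) →ₗ[R] X,
      ∀ v : LinearMap.ker p.π, g v = f v) :
    p.t * Module.length k (radSub R X) + 1 + p'.t * Module.length k (radSub R X) ≤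
      p.t * Module.length k X := by
  rw [p.length_hom_free_eq h2, length_hom_of_forall_mem _ (p.ker_map_mem_radSub h2),
    p'.length_hom_radKills (radKills_radSub hX)]
  refine add_le_add_left ?_ _
  -- the endomorphism part
  let ψ : (X →ₗ[R] X) →ₗ[k] (X →ₗ[R] X ⧸ radSub R X) := postK (k := k) (radSub R X).mkQ
  have hsplit : Module.length k (X →ₗ[R] X) =
      Module.length k (LinearMap.ker ψ) + Module.length k (LinearMap.range ψ) := by
    refine Module.length_eq_add_of_exact (LinearMap.ker ψ).subtype ψ.rangeRestrict
      (Submodule.injective_subtype _) ψ.surjective_rangeRestrict ?_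
    intro y
    constructor
    · intro hy
      have hy' : ψ y = 0 := congrArg Subtype.val hy
      exact ⟨⟨y, hy'⟩, rfl⟩
    · rintro ⟨z, rfl⟩
      exact Subtype.ext z.2
  have hmem : ∀ f : X →ₗ[R] radSub R X,
      postK (k := k) (A := X) (radSub R X).subtype f ∈ LinearMap.ker ψ := by
    intro f
    rw [LinearMap.mem_ker]
    ext a
    simp only [ψ, postK_apply, Submodule.subtype_apply, Submodule.mkQ_apply,
      LinearMap.zero_apply]
    exact (Submodule.Quotient.mk_eq_zero _).mpr (f a).2
  have hker : Module.length k (X →ₗ[R] radSub R X) ≤ Module.length k (LinearMap.ker ψ) := by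
    refine Module.length_le_of_injective
      ((postK (k := k) (A := X) (radSub R X).subtype).codRestrict (LinearMap.ker ψ) hmem) ?_
    intro f f' hff
    have h3 := congrArg Subtype.val hff
    simp only [LinearMap.codRestrict_apply] at h3
    ext a
    exact congrArg (fun φ => φ a) h3
  have hne : ψ LinearMap.id ≠ 0 := by
    intro h0
    have h3 := congrArg (fun φ => φ (p.π (Pi.single ⟨0, ht⟩ 1))) h0
    simp only [ψ, postK_apply, LinearMap.id_coe, id_eq, Submodule.mkQ_apply,
      LinearMap.zero_apply, Submodule.Quotient.mk_eq_zero] at h3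
    have h4 := (p.mem_radSub_iff _).mp h3 ⟨0, ht⟩
    rw [Pi.single_eq_same] at h4
    exact one_notMem_jacobson h4
  have hrange : 1 ≤ Module.length k (LinearMap.range ψ) := by
    have : Nontrivial (LinearMap.range ψ) :=
      ⟨⟨⟨ψ LinearMap.id, LinearMap.mem_range_self ψ _⟩, 0, fun h => hne (congrArg Subtype.val h)⟩⟩
    exact Order.one_le_iff_pos.mpr Module.length_pos
  rw [hsplit, ← p.length_hom_radKills (k := k) (radKills_radSub hX)]
  exact add_le_add hker hrange

/-- A finitely generated module killed by the radical has length a multiple of the length of the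
residue ring. -/
theorem MinPres.length_of_radKills (p : MinPres R X) (hX : RadKills R X) :
    Module.length k X = p.t * Module.length k (R ⧸ Ring.jacobson R) := by
  have hsub : Subsingleton (radSub R X) := by
    refine ⟨fun a b => Subtype.ext ?_⟩
    have h0 : ∀ x ∈ radSub R X, x = 0 := by
      intro x hx
      refine Submodule.smul_induction_on hx ?_ ?_
      · intro r hr m _
        exact hX r hr m
      · intro y z hy hz
        rw [hy, hz, add_zero]
    rw [h0 a a.2, h0 b b.2]
  rw [length_eq_rad_add_quot (k := k) (R := R) (X := X), Module.length_eq_zero, zero_add,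
    p.length_quot]

/-- A finitely generated module killed by the square of the radical has length equal to
`length (J • X) + b₀ * length (R / J)`. -/
theorem MinPres.length_eq_radSub_add (p : MinPres R X) :
    Module.length k X =
      Module.length k (radSub R X) + p.t * Module.length k (R ⧸ Ring.jacobson R) := by
  rw [length_eq_rad_add_quot (k := k) (R := R) (X := X), p.length_quot]

/-- A presentation with zero generators presents a trivial module. -/
theorem MinPres.subsingleton_of_t_eq_zero (p : MinPres R A) (h : p.t = 0) : Subsingleton A := by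
  refine ⟨fun a b => ?_⟩
  obtain ⟨v, rfl⟩ := p.surj a
  obtain ⟨w, rfl⟩ := p.surj b
  have : v = w := by
    ext i
    exact (Fin.elim0 (h ▸ i))
  rw [this]

/-- If the presentation map is injective, the module is projective. -/
theorem MinPres.projective_of_injective (p : MinPres R A) (h : Function.Injective p.π) :
    Module.Projective R A :=
  Module.Projective.of_equiv (LinearEquiv.ofBijective p.π ⟨h, p.surj⟩)

/-- If every map from the first syzygy to `R` extends to the free cover, the first syzygy is
not a nonzero free module: its minimal presentation is not injective unless it has no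
generators. -/
theorem MinPres.not_injective_syzygy [IsLocalRing R] (p : MinPres R A)
    (p' : MinPres R (LinearMap.ker p.π)) (ht : 0 < p'.t)
    (h2 : ∀ f : LinearMap.ker p.π →ₗ[R] R, ∃ g : (Fin p.t → R) →ₗ[R] R,
      ∀ v : LinearMap.ker p.π, g v = f v) :
    ¬ Function.Injective p'.π := by
  intro hinj
  let e := LinearEquiv.ofBijective p'.π ⟨hinj, p'.surj⟩
  let f : LinearMap.ker p.π →ₗ[R] R := (LinearMap.proj ⟨0, ht⟩) ∘ₗ e.symm.toLinearMap
  obtain ⟨g, hg⟩ := h2 f
  let x : LinearMap.ker p.π := p'.π (Pi.single ⟨0, ht⟩ 1)
  have hfx : f x = 1 := by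
    have : e.symm x = Pi.single ⟨0, ht⟩ 1 := by
      rw [LinearEquiv.symm_apply_eq]
      rfl
    simp [f, this]
  have hgx : g x.1 ∈ Ring.jacobson R := by
    rw [apply_eq_sum g x.1]
    refine Ideal.sum_mem _ fun i _ => ?_
    rw [smul_eq_mul]
    exact Ideal.mul_mem_right _ _ (p.min x.1 x.2 i)
  rw [hg x, hfx] at hgx
  exact one_notMem_jacobson hgx

end Vale.Agent.Lib.P195
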