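import Mathlib

/-!
Dimension shifting lemmas for `Ext` over a ring, phrased with `Subsingleton`, and the
extension property that follows from the vanishing of `Ext` in degree one.
-/

universe u

namespace Vale.Agent.Lib.P195

open CategoryTheory Abelian

variable {R : Type u} [Ring R]

section Shift

variable {P X : Type u} [AddCommGroup P] [Module R P] [AddCommGroup X] [Module R X]

/-- Shift in the first variable: if `P` is projective and `π : P → X` is onto, then vanishing of
`Ext^(n+1)(X, Y)` gives vanishing of `Ext^n(ker π, Y)` for `n ≥ 1`. -/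
theorem ext_ker_subsingleton (π : P →ₗ[R] X) (hπ : Function.Surjective π) [Module.Projective R P]
    (Y : ModuleCat.{u} R) (n : ℕ) (hn : 1 ≤ n)
    (h : Subsingleton (Ext (ModuleCat.of R X) Y (n + 1))) :
    Subsingleton (Ext (ModuleCat.of R (LinearMap.ker π)) Y n) := by
  have hS := LinearMap.shortExact_shortComplexKer hπ
  obtain ⟨m, rfl⟩ : ∃ m, n = m + 1 := ⟨n - 1, by omega⟩
  have key : ∀ x : Ext (ModuleCat.of R (LinearMap.ker π)) Y (m + 1), x = 0 := by
    intro x
    obtain ⟨x₂, hx₂⟩ := Ext.contravariant_sequence_exact₁ hS Y x (add_comm 1 (m + 1))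
      (Subsingleton.elim _ _)
    have h0 : x₂ = 0 := Ext.eq_zero_of_projective x₂
    rw [← hx₂, h0, Ext.comp_zero]
  exact ⟨fun a b => by rw [key a, key b]⟩

/-- Extension property: if `Ext^1(X, Y) = 0` and `π : P → X` is onto, every linear map
`ker π → Y` extends to `P`. -/
theorem extension_of_ext_one (π : P →ₗ[R] X) (hπ : Function.Surjective π)
    {Y : Type u} [AddCommGroup Y] [Module R Y]
    (h : Subsingleton (Ext (ModuleCat.of R X) (ModuleCat.of R Y) 1))
    (f : LinearMap.ker π →ₗ[R] Y) :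
    ∃ g : P →ₗ[R] Y, ∀ v : LinearMap.ker π, g v = f v := by
  have hS := LinearMap.shortExact_shortComplexKer hπ
  obtain ⟨x₂, hx₂⟩ := Ext.contravariant_sequence_exact₁ hS (ModuleCat.of R Y)
    (Ext.mk₀ (ModuleCat.ofHom f)) (add_comm 1 0) (Subsingleton.elim _ _)
  obtain ⟨g, rfl⟩ := (Ext.mk₀_bijective _ _).2 x₂
  rw [Ext.mk₀_comp_mk₀] at hx₂
  have h2 := (Ext.mk₀_bijective _ _).1 hx₂
  refine ⟨g.hom, fun v => ?_⟩
  have h3 := congrArg (fun φ => φ.hom v) h2
  simpa using h3

/-- Shift in the second variable. -/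
theorem ext_ker_subsingleton_right (π : P →ₗ[R] X) (hπ : Function.Surjective π)
    (Z : ModuleCat.{u} R) (n : ℕ)
    (h₁ : Subsingleton (Ext Z (ModuleCat.of R X) n))
    (h₂ : Subsingleton (Ext Z (ModuleCat.of R P) (n + 1))) :
    Subsingleton (Ext Z (ModuleCat.of R (LinearMap.ker π)) (n + 1)) := by
  have hS := LinearMap.shortExact_shortComplexKer hπ
  have key : ∀ x : Ext Z (ModuleCat.of R (LinearMap.ker π)) (n + 1), x = 0 := by
    intro x
    obtain ⟨x₃, hx₃⟩ := Ext.covariant_sequence_exact₁ Z hS x (Subsingleton.elim _ _) rfl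
    have h0 : x₃ = 0 := Subsingleton.elim _ _
    rw [← hx₃, h0, Ext.zero_comp]
  exact ⟨fun a b => by rw [key a, key b]⟩

end Shift

section Free

/-- Vanishing of `Ext` into `R` gives vanishing into a finite free module. -/
theorem ext_pi_subsingleton (Z : ModuleCat.{u} R) (n : ℕ) (t : ℕ)
    (h : Subsingleton (Ext Z (ModuleCat.of R R) n)) :
    Subsingleton (Ext Z (ModuleCat.of R (Fin t → R)) n) := by
  have key : ∀ x : Ext Z (ModuleCat.of R (Fin t → R)) n, x = 0 := by
    intro x
    have hid : (𝟙 (ModuleCat.of R (Fin t → R))) =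
        ∑ i : Fin t, (ModuleCat.ofHom (LinearMap.proj i : (Fin t → R) →ₗ[R] R)) ≫
          ModuleCat.ofHom (LinearMap.single R (fun _ : Fin t => R) i) := by
      ext v
      simp
    have h1 : x = x.comp (Ext.mk₀ (𝟙 (ModuleCat.of R (Fin t → R)))) (add_zero n) :=
      (Ext.comp_mk₀_id x).symm
    rw [h1, hid, Ext.mk₀_sum, Ext.comp_sum]
    apply Finset.sum_eq_zero
    intro i _
    rw [← Ext.mk₀_comp_mk₀, ← Ext.comp_assoc_of_third_deg_zero]
    have h0 : x.comp (Ext.mk₀ (ModuleCat.ofHom (LinearMap.proj i : (Fin t → R) →ₗ[R] R)))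
        (add_zero n) = 0 := Subsingleton.elim _ _
    rw [h0, Ext.zero_comp]
  exact ⟨fun a b => by rw [key a, key b]⟩

variable {A B : Type u} [AddCommGroup A] [Module R A] [AddCommGroup B] [Module R B]

/-- Vanishing of `Ext` into a product gives vanishing into the first factor. -/
theorem ext_fst_subsingleton (Z : ModuleCat.{u} R) (n : ℕ)
    (h : Subsingleton (Ext Z (ModuleCat.of R (A × B)) n)) :
    Subsingleton (Ext Z (ModuleCat.of R A) n) := by
  have key : ∀ x : Ext Z (ModuleCat.of R A) n, x = 0 := by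
    intro x
    have hid : (𝟙 (ModuleCat.of R A)) =
        ModuleCat.ofHom (LinearMap.inl R A B) ≫ ModuleCat.ofHom (LinearMap.fst R A B) := by
      ext v
      simp
    have h1 : x = x.comp (Ext.mk₀ (𝟙 (ModuleCat.of R A))) (add_zero n) :=
      (Ext.comp_mk₀_id x).symm
    rw [h1, hid, ← Ext.mk₀_comp_mk₀, ← Ext.comp_assoc_of_third_deg_zero]
    have h0 : x.comp (Ext.mk₀ (ModuleCat.ofHom (LinearMap.inl R A B))) (add_zero n) = 0 :=
      Subsingleton.elim _ _
    rw [h0, Ext.zero_comp]
  exact ⟨fun a b => by rw [key a, key b]⟩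

/-- Vanishing of `Ext` into a product gives vanishing into the second factor. -/
theorem ext_snd_subsingleton (Z : ModuleCat.{u} R) (n : ℕ)
    (h : Subsingleton (Ext Z (ModuleCat.of R (A × B)) n)) :
    Subsingleton (Ext Z (ModuleCat.of R B) n) := by
  have key : ∀ x : Ext Z (ModuleCat.of R B) n, x = 0 := by
    intro x
    have hid : (𝟙 (ModuleCat.of R B)) =
        ModuleCat.ofHom (LinearMap.inr R A B) ≫ ModuleCat.ofHom (LinearMap.snd R A B) := by
      ext v
      simp
    have h1 : x = x.comp (Ext.mk₀ (𝟙 (ModuleCat.of R B))) (add_zero n) :=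
      (Ext.comp_mk₀_id x).symm
    rw [h1, hid, ← Ext.mk₀_comp_mk₀, ← Ext.comp_assoc_of_third_deg_zero]
    have h0 : x.comp (Ext.mk₀ (ModuleCat.ofHom (LinearMap.inr R A B))) (add_zero n) = 0 :=
      Subsingleton.elim _ _
    rw [h0, Ext.zero_comp]
  exact ⟨fun a b => by rw [key a, key b]⟩

end Free

end Vale.Agent.Lib.P195
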