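import Mathlib
import Vale.Agent.Lib.P195.ExtShift

/-!
Bookkeeping for the vanishing of `Ext` in a range of degrees along a chain of syzygies.
-/

universe u

namespace Vale.Agent.Lib.P195

open CategoryTheory Abelian

variable {R : Type u} [Ring R]

/-- `Ext^i(X, Y)` vanishes for all `a ≤ i ≤ b`. -/
def Van (R : Type u) [Ring R] (X Y : Type u) [AddCommGroup X] [Module R X]
    [AddCommGroup Y] [Module R Y] (a b : ℕ) : Prop :=
  ∀ i : ℕ, a ≤ i → i ≤ b → Subsingleton (Ext (ModuleCat.of R X) (ModuleCat.of R Y) i)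

variable {X Y Z : Type u} [AddCommGroup X] [Module R X] [AddCommGroup Y] [Module R Y]
  [AddCommGroup Z] [Module R Z]

theorem Van.mono {a b a' b' : ℕ} (h : Van R X Y a b) (ha : a ≤ a') (hb : b' ≤ b) :
    Van R X Y a' b' :=
  fun i hi hi' => h i (le_trans ha hi) (le_trans hi' hb)

/-- Shift in the second variable along a free presentation. -/
theorem Van.ker_right {t : ℕ} (π : (Fin t → R) →ₗ[R] X) (hπ : Function.Surjective π) {a b : ℕ}
    (h1 : Van R Z X a b) (h2 : Van R Z R (a + 1) (b + 1)) :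
    Van R Z (LinearMap.ker π) (a + 1) (b + 1) := by
  intro i hi hi'
  obtain ⟨n, rfl⟩ : ∃ n, i = n + 1 := ⟨i - 1, by omega⟩
  exact ext_ker_subsingleton_right π hπ _ n (h1 n (by omega) (by omega))
    (ext_pi_subsingleton _ _ _ (h2 (n + 1) hi hi'))

/-- Shift in the first variable along a free presentation. -/
theorem Van.ker_left {t : ℕ} (π : (Fin t → R) →ₗ[R] X) (hπ : Function.Surjective π) {a b : ℕ}
    (ha : 1 ≤ a) (h : Van R X Y (a + 1) (b + 1)) :
    Van R (LinearMap.ker π) Y a b := by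
  intro i hi hi'
  exact ext_ker_subsingleton π hπ _ i (by omega) (h (i + 1) (by omega) (by omega))

/-- Extension property from vanishing in degree one. -/
theorem Van.extend {t : ℕ} (π : (Fin t → R) →ₗ[R] X) (hπ : Function.Surjective π) {b : ℕ}
    (h : Van R X Y 1 b) (hb : 1 ≤ b) (f : LinearMap.ker π →ₗ[R] Y) :
    ∃ g : (Fin t → R) →ₗ[R] Y, ∀ v : LinearMap.ker π, g v = f v :=
  extension_of_ext_one π hπ (h 1 le_rfl hb) f

end Vale.Agent.Lib.P195
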