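import Mathlib
import Vale.Agent.Lib.P195.Count
import Vale.Agent.Lib.P195.Arith
import Vale.Agent.Lib.P195.Vanish

/-!
The core argument: over a local ring with `J^3 = 0` of finite length over a central subring,
a module with a chain of five minimal syzygies and `Ext` vanishing in low degrees is projective.
-/

universe u

namespace Vale.Agent.Lib.P195

open CategoryTheory Abelian

variable {k : Type*} [CommRing k] {R : Type u} [Ring R] [Algebra k R]
variable {X : Type u} [AddCommGroup X] [Module R X] [Module k X] [IsScalarTower k R X]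
variable {A : Type u} [AddCommGroup A] [Module R A]

theorem MinPres.length_ker_ne_top (p : MinPres R A) (h : Module.length k R ≠ ⊤) :
    Module.length k (LinearMap.ker p.π) ≠ ⊤ := by
  have hle : Module.length k (LinearMap.ker p.π) ≤ Module.length k (Fin p.t → R) :=
    Module.length_le_of_injective ((LinearMap.ker p.π).subtype.restrictScalars k)
      (fun a b h => Subtype.ext h)
  have hF : Module.length k (Fin p.t → R) = p.t * Module.length k R := by simp
  intro htop
  rw [htop, hF, top_le_iff] at hle
  exact WithTop.mul_ne_top (ENat.natCast_ne_top _) h hle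

theorem length_radSub_ne_top (h : Module.length k X ≠ ⊤) :
    Module.length k (radSub R X) ≠ ⊤ := by
  intro htop
  apply h
  rw [length_eq_rad_add_quot (k := k) (R := R) (X := X), htop, top_add]

theorem length_quot_ne_top (h : Module.length k R ≠ ⊤) :
    Module.length k (R ⧸ Ring.jacobson R) ≠ ⊤ := by
  intro htop
  apply h
  rw [length_eq_sub_add_quot (k := k) (Ring.jacobson R), htop, add_top]

theorem MinPres.pos_of_not_injective (p : MinPres R A) (p' : MinPres R (LinearMap.ker p.π))
    (h : ¬ Function.Injective p.π) : 0 < p'.t := by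
  by_contra h0
  have hsub : Subsingleton (LinearMap.ker p.π) := p'.subsingleton_of_t_eq_zero (by omega)
  apply h
  rw [← LinearMap.ker_eq_bot]
  exact Submodule.eq_bot_of_subsingleton

/-- The conclusion of the core argument for every chain of five minimal syzygies. It is kept as
a definition so that the type of `core` stays small: with the chain written out in the type of a
theorem, writing the compiled file takes more than twenty minutes. -/
def CoreChain (R : Type u) [Ring R] (M : Type u) [AddCommGroup M] [Module R M] : Prop :=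
  ∀ (p0 : MinPres R M) (p1 : MinPres R (LinearMap.ker p0.π))
    (p2 : MinPres R (LinearMap.ker p1.π)) (p3 : MinPres R (LinearMap.ker p2.π))
    (p4 : MinPres R (LinearMap.ker p3.π)) (_p5 : MinPres R (LinearMap.ker p4.π))
    (_q : MinPres R (radSub R (LinearMap.ker p0.π))),
    Van R M M 1 4 → Van R M R 1 5 → Module.Projective R M

theorem core [IsLocalRing R]
    (hJ : ∀ a ∈ Ring.jacobson R, ∀ b ∈ Ring.jacobson R, ∀ c ∈ Ring.jacobson R, a * b * c = 0)
    (hfin : Module.length k R ≠ ⊤)
    (hdiv : ∃ L : ℕ, Module.length k R = L * Module.length k (R ⧸ Ring.jacobson R))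
    {M : Type u} [AddCommGroup M] [Module R M] : CoreChain R M := by
  intro p0 p1 p2 p3 p4 p5 q hMM hMR
  by_contra hproj
  have hN1 : RadSqKills R (LinearMap.ker p0.π) := p0.radSqKills_ker hJ
  have hN2 : RadSqKills R (LinearMap.ker p1.π) := p1.radSqKills_ker hJ
  have hN3 : RadSqKills R (LinearMap.ker p2.π) := p2.radSqKills_ker hJ
  -- vanishing of Ext along the chain of syzygies
  have v01 : Van R M (LinearMap.ker p0.π) 2 5 :=
    Van.ker_right p0.π p0.surj hMM (hMR.mono (by omega) (by omega))
  have v02 : Van R M (LinearMap.ker p1.π) 3 5 :=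
    Van.ker_right p1.π p1.surj (v01.mono (a' := 2) (b' := 4) le_rfl (by omega))
      (hMR.mono (by omega) (by omega))
  have v03 : Van R M (LinearMap.ker p2.π) 4 5 :=
    Van.ker_right p2.π p2.surj (v02.mono (a' := 3) (b' := 4) le_rfl (by omega))
      (hMR.mono (by omega) (by omega))
  have v11 : Van R (LinearMap.ker p0.π) (LinearMap.ker p0.π) 1 4 :=
    Van.ker_left p0.π p0.surj le_rfl v01
  have v21 : Van R (LinearMap.ker p1.π) (LinearMap.ker p0.π) 1 3 :=
    Van.ker_left p1.π p1.surj le_rfl (v11.mono (by omega) le_rfl)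
  have v31 : Van R (LinearMap.ker p2.π) (LinearMap.ker p0.π) 1 2 :=
    Van.ker_left p2.π p2.surj le_rfl (v21.mono (by omega) le_rfl)
  have v41 : Van R (LinearMap.ker p3.π) (LinearMap.ker p0.π) 1 1 :=
    Van.ker_left p3.π p3.surj le_rfl (v31.mono (by omega) le_rfl)
  have v12 : Van R (LinearMap.ker p0.π) (LinearMap.ker p1.π) 2 4 :=
    Van.ker_left p0.π p0.surj (by omega) v02
  have v22 : Van R (LinearMap.ker p1.π) (LinearMap.ker p1.π) 1 3 :=
    Van.ker_left p1.π p1.surj le_rfl v12
  have v32 : Van R (LinearMap.ker p2.π) (LinearMap.ker p1.π) 1 2 :=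
    Van.ker_left p2.π p2.surj le_rfl (v22.mono (by omega) le_rfl)
  have v13 : Van R (LinearMap.ker p0.π) (LinearMap.ker p2.π) 3 4 :=
    Van.ker_left p0.π p0.surj (by omega) v03
  have v23 : Van R (LinearMap.ker p1.π) (LinearMap.ker p2.π) 2 3 :=
    Van.ker_left p1.π p1.surj (by omega) v13
  have v33 : Van R (LinearMap.ker p2.π) (LinearMap.ker p2.π) 1 2 :=
    Van.ker_left p2.π p2.surj le_rfl v23
  have v43 : Van R (LinearMap.ker p3.π) (LinearMap.ker p2.π) 1 1 :=
    Van.ker_left p3.π p3.surj le_rfl (v33.mono (by omega) le_rfl)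
  have v1R : Van R (LinearMap.ker p0.π) R 1 4 :=
    Van.ker_left p0.π p0.surj le_rfl (hMR.mono (by omega) le_rfl)
  have v2R : Van R (LinearMap.ker p1.π) R 1 3 :=
    Van.ker_left p1.π p1.surj le_rfl (v1R.mono (by omega) le_rfl)
  -- extension properties
  have e0R := fun f => Van.extend p0.π p0.surj hMR (by omega) f
  have e1R := fun f => Van.extend p1.π p1.surj v1R (by omega) f
  have e2R := fun f => Van.extend p2.π p2.surj v2R (by omega) f
  have e11 := fun f => Van.extend p1.π p1.surj v11 (by omega) f
  have e21 := fun f => Van.extend p2.π p2.surj v21 (by omega) f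
  have e31 := fun f => Van.extend p3.π p3.surj v31 (by omega) f
  have e41 := fun f => Van.extend p4.π p4.surj v41 (by omega) f
  have e22 := fun f => Van.extend p2.π p2.surj v22 (by omega) f
  have e32 := fun f => Van.extend p3.π p3.surj v32 (by omega) f
  have e33 := fun f => Van.extend p3.π p3.surj v33 (by omega) f
  have e43 := fun f => Van.extend p4.π p4.surj v43 (by omega) f
  -- nonvanishing of Betti numbers
  have ht1 : 0 < p1.t :=
    p0.pos_of_not_injective p1 (fun h => hproj (p0.projective_of_injective h))
  have ht2 : 0 < p2.t := p1.pos_of_not_injective p2 (p0.not_injective_syzygy p1 ht1 e0R)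
  have ht3 : 0 < p3.t := p2.pos_of_not_injective p3 (p1.not_injective_syzygy p2 ht2 e1R)
  have ht4 : 0 < p4.t := p3.pos_of_not_injective p4 (p2.not_injective_syzygy p3 ht3 e2R)
  -- the numerical relations
  have R1 := relA' (k := k) hN1 p1 p2 p3 e11 e21
  have R2 := relA' (k := k) hN1 p2 p3 p4 e21 e31
  have R4 := relA' (k := k) hN1 p3 p4 p5 e31 e41
  have R3 := relA' (k := k) hN2 p2 p3 p4 e22 e32
  have R5 := relA' (k := k) hN3 p3 p4 p5 e33 e43
  have C := count_end (k := k) hN2 p2 p3 ht2 e22
  have E := p2.length_ker_add (k := k)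
  have hn1 := p1.length_eq_radSub_add (k := k)
  have hn2 := p2.length_eq_radSub_add (k := k)
  have hn3 := p3.length_eq_radSub_add (k := k)
  have hσ1 := q.length_of_radKills (k := k) (radKills_radSub hN1)
  -- finiteness
  have f1 : Module.length k (LinearMap.ker p0.π) ≠ ⊤ := p0.length_ker_ne_top hfin
  have f2 : Module.length k (LinearMap.ker p1.π) ≠ ⊤ := p1.length_ker_ne_top hfin
  have f3 : Module.length k (LinearMap.ker p2.π) ≠ ⊤ := p2.length_ker_ne_top hfin
  have g1 := length_radSub_ne_top (k := k) (R := R) f1
  have g2 := length_radSub_ne_top (k := k) (R := R) f2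
  have g3 := length_radSub_ne_top (k := k) (R := R) f3
  have hδtop := length_quot_ne_top (k := k) (R := R) hfin
  have hδpos : 0 < Module.length k (R ⧸ Ring.jacobson R) := by
    have : Nontrivial (R ⧸ Ring.jacobson R) :=
      Submodule.Quotient.nontrivial_iff.mpr (Ring.jacobson_lt_top R).ne
    exact Module.length_pos
  obtain ⟨L, hL⟩ := hdiv
  exact arith_contra_enat (Module.length k (R ⧸ Ring.jacobson R)) (Module.length k R)
    (Module.length k (LinearMap.ker p0.π)) (Module.length k (LinearMap.ker p1.π))
    (Module.length k (LinearMap.ker p2.π)) (Module.length k (radSub R (LinearMap.ker p0.π)))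
    (Module.length k (radSub R (LinearMap.ker p1.π)))
    (Module.length k (radSub R (LinearMap.ker p2.π)))
    p1.t p2.t p3.t p4.t p5.t q.t L hfin hδtop f1 f2 f3 g1 g2 g3 hδpos ht1 ht2 ht3 ht4
    hσ1 hL hn1 hn2 hn3 R1 R2 R4 R3 R5 E C

end Vale.Agent.Lib.P195
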