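import Mathlib
import Vale.Agent.Lib.P195.GPres
import Vale.Agent.Lib.P195.Length

/-!
Minimal projective presentations: descent, syzygies, and the length relations between spaces
of linear maps used in the counting argument.
-/

universe u

namespace Vale.Agent.Lib.P195

section Basic

variable {R : Type u} [Ring R]
variable {N X : Type u} [AddCommGroup N] [Module R N] [AddCommGroup X] [Module R X]

namespace ProjPres

variable (p : ProjPres R N)

/-- Descent of a map vanishing on the kernel. -/
theorem descend (g : p.P →ₗ[R] X) (h : ∀ v, p.π v = 0 → g v = 0) :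
    ∃ f : N →ₗ[R] X, ∀ v, f (p.π v) = g v := by
  have hle : LinearMap.ker p.π ≤ LinearMap.ker g := fun v hv => h v hv
  refine ⟨(Submodule.liftQ (LinearMap.ker p.π) g hle) ∘ₗ
    (p.π.quotKerEquivOfSurjective p.surj).symm.toLinearMap, fun v => ?_⟩
  have : (p.π.quotKerEquivOfSurjective p.surj).symm (p.π v) =
      Submodule.Quotient.mk v := by
    rw [LinearEquiv.symm_apply_eq]
    rfl
  simp [this]

theorem apply_ker_mem_radSub (g : p.P →ₗ[R] X) (v : p.P) (hv : p.π v = 0) :
    g v ∈ radSub R X :=
  map_mem_radSub g (p.min hv)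

theorem apply_ker_eq_zero (g : p.P →ₗ[R] X) (hX : RadKills R X) (v : p.P) (hv : p.π v = 0) :
    g v = 0 :=
  map_eq_zero_of_radKills g hX (p.min hv)

/-- If `J^3 = 0` the syzygy is killed by `J * J`. -/
theorem radSqKills_ker
    (hJ : ∀ a ∈ Ring.jacobson R, ∀ b ∈ Ring.jacobson R, ∀ c ∈ Ring.jacobson R, a * b * c = 0) :
    RadSqKills R (LinearMap.ker p.π) := by
  intro a ha b hb x
  apply Subtype.ext
  simp only [Submodule.coe_smul, ZeroMemClass.coe_zero]
  have hx : x.1 ∈ radSub R p.P := p.min x.2
  refine Submodule.smul_induction_on hx ?_ ?_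
  · intro c hc w _
    rw [smul_smul, smul_smul, hJ a ha b hb c hc, zero_smul]
  · intro y z hy hz
    rw [smul_add, smul_add, hy, hz, add_zero]

/-- Maps out of the syzygy that extend to the cover land in the radical layer. -/
theorem ker_map_mem_radSub
    (h2 : ∀ f : LinearMap.ker p.π →ₗ[R] X, ∃ g : p.P →ₗ[R] X,
      ∀ v : LinearMap.ker p.π, g v = f v)
    (f : LinearMap.ker p.π →ₗ[R] X) (x : LinearMap.ker p.π) : f x ∈ radSub R X := by
  obtain ⟨g, hg⟩ := h2 f
  rw [← hg x]
  exact p.apply_ker_mem_radSub g x.1 x.2

theorem projective_of_injective (h : Function.Injective p.π) : Module.Projective R N :=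
  Module.Projective.of_equiv (LinearEquiv.ofBijective p.π ⟨h, p.surj⟩)

/-- If the syzygy is projective and every map from it to `R` extends to the cover, then the
syzygy is zero. -/
theorem ker_subsingleton_of_projective
    (hJ : ∀ a ∈ Ring.jacobson R, ∀ b ∈ Ring.jacobson R, ∀ c ∈ Ring.jacobson R, a * b * c = 0)
    [Module.Finite R (LinearMap.ker p.π)]
    (hK : Module.Projective R (LinearMap.ker p.π))
    (h2 : ∀ f : LinearMap.ker p.π →ₗ[R] R, ∃ g : p.P →ₗ[R] R,
      ∀ v : LinearMap.ker p.π, g v = f v) :
    Subsingleton (LinearMap.ker p.π) := by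
  obtain ⟨n, f, g, -, -, hfg⟩ :=
    Module.Finite.exists_comp_eq_id_of_projective R (LinearMap.ker p.π)
  choose G hG using fun l : Fin n => h2 ((LinearMap.proj l) ∘ₗ g)
  let ρ : p.P →ₗ[R] LinearMap.ker p.π := f ∘ₗ LinearMap.pi G
  have hρ : ∀ v : LinearMap.ker p.π, ρ v.1 = v := by
    intro v
    have h1 : LinearMap.pi G v.1 = g v := by
      ext l
      simp [hG l v]
    have h3 : f (g v) = v := LinearMap.congr_fun hfg v
    simp only [ρ, LinearMap.comp_apply, h1, h3]
  apply subsingleton_of_radSub_eq_top hJ
  rw [eq_top_iff]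
  intro v _
  rw [← hρ v]
  exact map_mem_radSub ρ (p.min v.2)

end ProjPres

end Basic

section Length

variable {k : Type*} [CommRing k] {R : Type u} [Ring R] [Algebra k R]
variable {X : Type u} [AddCommGroup X] [Module R X] [Module k X] [IsScalarTower k R X]
variable {A : Type u} [AddCommGroup A] [Module R A]

/-- Finiteness of the length of a space of linear maps out of a finitely generated module. -/
theorem length_hom_ne_top [Module.Finite R A] (hX : Module.length k X ≠ ⊤) :
    Module.length k (A →ₗ[R] X) ≠ ⊤ := by
  obtain ⟨t, π₀, hπ₀⟩ := Module.Finite.exists_fin' R A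
  have hinj : Function.Injective (preK (k := k) (X := X) π₀) := by
    intro f f' h
    ext n
    obtain ⟨v, rfl⟩ := hπ₀ n
    exact congrArg (fun φ => φ v) h
  have hle := Module.length_le_of_injective (preK (k := k) (X := X) π₀) hinj
  rw [length_hom_free] at hle
  intro htop
  rw [htop, top_le_iff] at hle
  exact WithTop.mul_ne_top (ENat.natCast_ne_top _) hX hle

/-- The radical layer is a proper submodule of a nonzero module, so the identity is an
endomorphism outside `Hom(X, J • X)`. -/
theorem length_end_ge (hnt : radSub R X ≠ ⊤) :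
    Module.length k (X →ₗ[R] radSub R X) + 1 ≤ Module.length k (X →ₗ[R] X) := by
  let ψ : (X →ₗ[R] X) →ₗ[k] (X →ₗ[R] X ⧸ radSub R X) := postK (k := k) (radSub R X).mkQ
  have hsplit : Module.length k (X →ₗ[R] X) =
      Module.length k (LinearMap.ker ψ) + Module.length k (LinearMap.range ψ) := by
    refine Module.length_eq_add_of_exact (LinearMap.ker ψ).subtype ψ.rangeRestrict
      (Submodule.injective_subtype _) ψ.surjective_rangeRestrict ?_
    intro y
    constructor
    · intro hy
      have hy' : ψ y = 0 := congrArg Subtype.val hy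
      exact ⟨⟨y, hy'⟩, rfl⟩
    · rintro ⟨z, rfl⟩
      exact Subtype.ext z.2
  have hmem : ∀ f : X →ₗ[R] radSub R X,
      postK (k := k) (A := X) (radSub R X).subtype f ∈ LinearMap.ker ψ := by
    intro f
    rw [LinearMap.mem_ker]
    ext a
    simp only [ψ, postK_apply, Submodule.subtype_apply, Submodule.mkQ_apply,
      LinearMap.zero_apply]
    exact (Submodule.Quotient.mk_eq_zero _).mpr (f a).2
  have hker : Module.length k (X →ₗ[R] radSub R X) ≤ Module.length k (LinearMap.ker ψ) := by
    refine Module.length_le_of_injective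
      ((postK (k := k) (A := X) (radSub R X).subtype).codRestrict (LinearMap.ker ψ) hmem) ?_
    intro f f' hff
    have h3 := congrArg Subtype.val hff
    simp only [LinearMap.codRestrict_apply] at h3
    ext a
    exact congrArg (fun φ => φ a) h3
  have hne : ψ LinearMap.id ≠ 0 := by
    intro h0
    apply hnt
    rw [eq_top_iff]
    intro x _
    have h3 := congrArg (fun φ => φ x) h0
    simpa [ψ] using h3
  have hrange : 1 ≤ Module.length k (LinearMap.range ψ) := by
    have : Nontrivial (LinearMap.range ψ) :=
      ⟨⟨⟨ψ LinearMap.id, LinearMap.mem_range_self ψ _⟩, 0, fun h => hne (congrArg Subtype.val h)⟩⟩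
    exact Order.one_le_iff_pos.mpr Module.length_pos
  rw [hsplit]
  exact add_le_add hker hrange

namespace ProjPres

/-- Maps into a module killed by the radical factor uniquely through the presentation. -/
theorem length_hom_radKills (p : ProjPres R A) (hX : RadKills R X) :
    Module.length k (A →ₗ[R] X) = Module.length k (p.P →ₗ[R] X) := by
  have hinj : Function.Injective (preK (k := k) (X := X) p.π) := by
    intro f f' h
    ext n
    obtain ⟨v, rfl⟩ := p.surj n
    exact congrArg (fun φ => φ v) h
  have hsurj : Function.Surjective (preK (k := k) (X := X) p.π) := by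
    intro g
    obtain ⟨f, hf⟩ := p.descend g (fun v hv => p.apply_ker_eq_zero g hX v hv)
    exact ⟨f, LinearMap.ext fun v => by simp [hf]⟩
  exact (LinearEquiv.ofBijective _ ⟨hinj, hsurj⟩).length_eq

/-- The `Hom` exact sequence of a presentation, assuming every map out of the kernel extends. -/
theorem length_hom_exact (p : ProjPres R A)
    (hext : ∀ f : LinearMap.ker p.π →ₗ[R] X, ∃ g : p.P →ₗ[R] X,
      ∀ v : LinearMap.ker p.π, g v = f v) :
    Module.length k (p.P →ₗ[R] X) =
      Module.length k (A →ₗ[R] X) + Module.length k (LinearMap.ker p.π →ₗ[R] X) := by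
  have hinj : Function.Injective (preK (k := k) (X := X) p.π) := by
    intro f f' h
    ext n
    obtain ⟨v, rfl⟩ := p.surj n
    exact congrArg (fun φ => φ v) h
  have hsurj : Function.Surjective (preK (k := k) (X := X) (LinearMap.ker p.π).subtype) := by
    intro f
    obtain ⟨g, hg⟩ := hext f
    exact ⟨g, LinearMap.ext fun v => by simp [hg]⟩
  have hex : Function.Exact (preK (k := k) (X := X) p.π)
      (preK (k := k) (X := X) (LinearMap.ker p.π).subtype) := by
    intro g
    constructor
    · intro hg
      have hg' : ∀ v, p.π v = 0 → g v = 0 := by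
        intro v hv
        have := congrArg (fun φ => φ ⟨v, hv⟩) hg
        simpa using this
      obtain ⟨f, hf⟩ := p.descend g hg'
      exact ⟨f, LinearMap.ext fun v => by simp [hf]⟩
    · rintro ⟨f, rfl⟩
      ext v
      have hv : p.π v.1 = 0 := v.2
      simp [hv]
  exact Module.length_eq_add_of_exact _ _ hinj hsurj hex

/-- `Hom(P, -)` is exact for the projective module `P`. -/
theorem length_hom_split (p : ProjPres R A) (S : Submodule R X) :
    Module.length k (p.P →ₗ[R] X) =
      Module.length k (p.P →ₗ[R] S) + Module.length k (p.P →ₗ[R] X ⧸ S) := by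
  have hinj : Function.Injective (postK (k := k) (A := p.P) S.subtype) := by
    intro f f' hff
    ext a
    exact congrArg (fun φ => φ a) hff
  have hsurj : Function.Surjective (postK (k := k) (A := p.P) S.mkQ) := by
    intro h
    obtain ⟨g, hg⟩ := Module.projective_lifting_property S.mkQ h (Submodule.mkQ_surjective S)
    exact ⟨g, hg⟩
  have hex : Function.Exact (postK (k := k) (A := p.P) S.subtype)
      (postK (k := k) (A := p.P) S.mkQ) := by
    intro f
    constructor
    · intro hf
      have hmem : ∀ a, f a ∈ S := by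
        intro a
        have := congrArg (fun φ => φ a) hf
        simpa using this
      exact ⟨f.codRestrict S hmem, LinearMap.ext fun a => rfl⟩
    · rintro ⟨f', rfl⟩
      ext a
      simp
  exact Module.length_eq_add_of_exact _ _ hinj hsurj hex

end ProjPres

/-- Counting relation: `length Hom(A, X / J X) = length Hom(ΩA, J X)` when `J * J` kills `X`,
all maps `A → X` land in `J X` and all maps `ΩA → X` extend to the projective cover. -/
theorem relG (hX : RadSqKills R X) (p : ProjPres R A)
    (h1 : ∀ f : A →ₗ[R] X, ∀ a, f a ∈ radSub R X)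
    (h2 : ∀ f : LinearMap.ker p.π →ₗ[R] X, ∃ g : p.P →ₗ[R] X,
      ∀ v : LinearMap.ker p.π, g v = f v)
    (hfin : Module.length k (A →ₗ[R] radSub R X) ≠ ⊤) :
    Module.length k (A →ₗ[R] X ⧸ radSub R X) =
      Module.length k (LinearMap.ker p.π →ₗ[R] radSub R X) := by
  have e1 := p.length_hom_exact (k := k) h2
  rw [length_hom_of_forall_mem _ h1, length_hom_of_forall_mem _ (p.ker_map_mem_radSub h2)] at e1
  have e2 := p.length_hom_split (k := k) (radSub R X)
  rw [← p.length_hom_radKills (radKills_radSub hX), ← p.length_hom_radKills radKills_quot,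
    e1] at e2
  exact ((WithTop.add_left_inj hfin).mp e2).symm

/-- Counting inequality at a nonzero module `X` killed by `J * J`:
`length Hom(ΩX, J X) + 1 ≤ length Hom(X, X / J X)`. -/
theorem countG (hX : RadSqKills R X) (p : ProjPres R X) (hnt : radSub R X ≠ ⊤)
    (h2 : ∀ f : LinearMap.ker p.π →ₗ[R] X, ∃ g : p.P →ₗ[R] X,
      ∀ v : LinearMap.ker p.π, g v = f v)
    (hfin : Module.length k (X →ₗ[R] radSub R X) ≠ ⊤) :
    Module.length k (LinearMap.ker p.π →ₗ[R] radSub R X) + 1 ≤
      Module.length k (X →ₗ[R] X ⧸ radSub R X) := by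
  have e1 := p.length_hom_exact (k := k) h2
  rw [length_hom_of_forall_mem _ (p.ker_map_mem_radSub h2)] at e1
  have e2 := p.length_hom_split (k := k) (radSub R X)
  rw [← p.length_hom_radKills (radKills_radSub hX), ← p.length_hom_radKills radKills_quot,
    e1] at e2
  have e3 := length_end_ge (k := k) hnt
  have e4 : Module.length k (X →ₗ[R] radSub R X) +
      (Module.length k (LinearMap.ker p.π →ₗ[R] radSub R X) + 1) ≤
      Module.length k (X →ₗ[R] radSub R X) + Module.length k (X →ₗ[R] X ⧸ radSub R X) := by
    rw [← e2]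
    calc Module.length k (X →ₗ[R] radSub R X) +
          (Module.length k (LinearMap.ker p.π →ₗ[R] radSub R X) + 1)
        = (Module.length k (X →ₗ[R] radSub R X) + 1) +
          Module.length k (LinearMap.ker p.π →ₗ[R] radSub R X) := by ring
      _ ≤ Module.length k (X →ₗ[R] X) +
          Module.length k (LinearMap.ker p.π →ₗ[R] radSub R X) := add_le_add_left e3 _
  exact (WithTop.add_le_add_iff_left hfin).mp e4

end Length

end Vale.Agent.Lib.P195
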