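import Mathlib
import Vale.Agent.Lib.P195.GLength

/-!
Simple modules over a semiprimary ring: finitely many up to isomorphism, and lengths of spaces of
maps into modules killed by the radical decompose along them.
-/

universe u

namespace Vale.Agent.Lib.P195

section Reps

variable (R : Type u) [Ring R]

/-- Index set for the isomorphism classes of simple modules: the isotypic components of the
left module `R / J`. -/
abbrev SimpIdx : Type u := ↥(isotypicComponents R (R ⧸ Ring.jacobson R))

/-- A chosen simple submodule of `R / J` in each isotypic component. -/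
noncomputable def simpRep (c : SimpIdx R) : Submodule R (R ⧸ Ring.jacobson R) :=
  Classical.choose c.2

theorem simpRep_simple (c : SimpIdx R) : IsSimpleModule R (simpRep R c) :=
  (Classical.choose_spec c.2).1

theorem simpRep_spec (c : SimpIdx R) :
    c.1 = isotypicComponent R (R ⧸ Ring.jacobson R) (simpRep R c) :=
  (Classical.choose_spec c.2).2

theorem radKills_res : RadKills R (R ⧸ Ring.jacobson R) := by
  intro a ha x
  obtain ⟨r, rfl⟩ := Submodule.Quotient.mk_surjective _ x
  rw [← Submodule.Quotient.mk_smul, Submodule.Quotient.mk_eq_zero, smul_eq_mul]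
  exact Ideal.mul_mem_right _ _ ha

/-- Every simple module is isomorphic to one of the chosen representatives. -/
theorem exists_simpRep_equiv [IsSemiprimaryRing R] (V : Type u) [AddCommGroup V] [Module R V]
    [IsSimpleModule R V] : ∃ c : SimpIdx R, Nonempty (V ≃ₗ[R] simpRep R c) := by
  have : Nontrivial V := IsSimpleModule.nontrivial R V
  obtain ⟨v, hv⟩ := exists_ne (0 : V)
  have hsurj := IsSimpleModule.toSpanSingleton_surjective R hv
  have hkill : Ring.jacobson R ≤ LinearMap.ker (LinearMap.toSpanSingleton R V v) := by
    intro r hr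
    have h1 := IsSemisimpleModule.jacobson_le_annihilator R V hr
    rw [LinearMap.mem_ker, LinearMap.toSpanSingleton_apply]
    exact Module.mem_annihilator.mp h1 v
  let φ : (R ⧸ Ring.jacobson R) →ₗ[R] V :=
    Submodule.liftQ _ (LinearMap.toSpanSingleton R V v) hkill
  have hφ : Function.Surjective φ := by
    intro w
    obtain ⟨r, rfl⟩ := hsurj w
    exact ⟨Submodule.Quotient.mk r, rfl⟩
  have hss : IsSemisimpleModule R (R ⧸ Ring.jacobson R) :=
    isSemisimpleModule_of_radKills (radKills_res R)
  obtain ⟨P, ⟨e⟩⟩ := IsSemisimpleModule.exists_submodule_linearEquiv_quotient (LinearMap.ker φ)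
  let e' : P ≃ₗ[R] V := e.trans (φ.quotKerEquivOfSurjective hφ)
  have hP : IsSimpleModule R P := IsSimpleModule.congr e'
  let c : SimpIdx R := ⟨isotypicComponent R _ P, P, hP, rfl⟩
  refine ⟨c, ?_⟩
  have hsimp := simpRep_simple R c
  have hiso : IsIsotypicOfType R
      (isotypicComponent R (R ⧸ Ring.jacobson R) (simpRep R c)) (simpRep R c) :=
    IsIsotypicOfType.isotypicComponent R _ _
  have hPle : P ≤ isotypicComponent R (R ⧸ Ring.jacobson R) (simpRep R c) := by
    rw [← simpRep_spec R c]
    exact P.le_isotypicComponent
  obtain ⟨e''⟩ := isIsotypicOfType_submodule_iff.mp hiso P hPle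
  exact ⟨e'.symm.trans e''⟩

end Reps

section Decomp

variable {k : Type*} [CommRing k] {R : Type u} [Ring R] [Algebra k R]
variable {X : Type u} [AddCommGroup X] [Module R X] [Module k X] [IsScalarTower k R X]
variable {Y : Type u} [AddCommGroup Y] [Module R Y] [Module k Y] [IsScalarTower k R Y]
variable {T : Type u} [AddCommGroup T] [Module R T]

theorem length_hom_congr (e : X ≃ₗ[R] Y) :
    Module.length k (T →ₗ[R] X) = Module.length k (T →ₗ[R] Y) := by
  have hinj : Function.Injective (postK (k := k) (A := T) e.toLinearMap) := by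
    intro f f' hff
    ext a
    have := congrArg (fun φ => φ a) hff
    simpa using this
  have hsurj : Function.Surjective (postK (k := k) (A := T) e.toLinearMap) := by
    intro g
    exact ⟨e.symm.toLinearMap ∘ₗ g, LinearMap.ext fun a => by simp⟩
  exact (LinearEquiv.ofBijective _ ⟨hinj, hsurj⟩).length_eq

theorem length_hom_pi {n : ℕ} (Z : Fin n → Type u) [∀ i, AddCommGroup (Z i)]
    [∀ i, Module R (Z i)] [∀ i, Module k (Z i)] [∀ i, IsScalarTower k R (Z i)] :
    Module.length k (T →ₗ[R] (∀ i, Z i)) = ∑ i, Module.length k (T →ₗ[R] Z i) := by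
  rw [← Module.length_pi_of_fintype k (fun i => T →ₗ[R] Z i)]
  let Φ : (T →ₗ[R] (∀ i, Z i)) →ₗ[k] (∀ i, T →ₗ[R] Z i) :=
    { toFun := fun f i => (LinearMap.proj i) ∘ₗ f
      map_add' := fun f g => by ext i a; simp
      map_smul' := fun c f => by ext i a; simp }
  have hinj : Function.Injective Φ := by
    intro f f' hff
    ext a i
    have := congrArg (fun φ => φ i a) hff
    simpa [Φ] using this
  have hsurj : Function.Surjective Φ := by
    intro g
    exact ⟨LinearMap.pi g, by ext i a; simp [Φ]⟩
  exact (LinearEquiv.ofBijective Φ ⟨hinj, hsurj⟩).length_eq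

/-- The length of `Hom(T, X)` for a finitely generated module `X` killed by the radical is a sum
of lengths of `Hom(T, S)` over finitely many of the chosen simple modules `S`, with a choice of
simple modules that does not depend on `T`. -/
theorem exists_simple_decomp [IsSemiprimaryRing R] (X : Type u) [AddCommGroup X] [Module R X]
    [Module k X] [IsScalarTower k R X] [Module.Finite R X] (hX : RadKills R X) :
    ∃ (n : ℕ) (c : Fin n → SimpIdx R), ∀ (T : Type u) [AddCommGroup T] [Module R T],
      Module.length k (T →ₗ[R] X) = ∑ s : Fin n, Module.length k (T →ₗ[R] simpRep R (c s)) := by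
  have hss : IsSemisimpleModule R X := isSemisimpleModule_of_radKills hX
  obtain ⟨n, S, e, hS⟩ := IsSemisimpleModule.exists_linearEquiv_fin_dfinsupp R X
  choose c hc using fun i => exists_simpRep_equiv R (S i)
  refine ⟨n, c, fun T _ _ => ?_⟩
  have e1 : X ≃ₗ[R] (∀ i : Fin n, S i) := e.trans DFinsupp.linearEquivFunOnFintype
  rw [length_hom_congr (k := k) (T := T) e1, length_hom_pi (k := k) (T := T) (fun i => S i)]
  refine Finset.sum_congr rfl fun i _ => ?_
  exact length_hom_congr (k := k) (T := T) (hc i).some

end Decomp

end Vale.Agent.Lib.P195
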