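import Mathlib
import Vale.Agent.Lib.P195.GSemi
import Vale.Agent.Lib.P195.ExtShift

/-!
The chain of syzygies of a finitely generated module with respect to chosen minimal projective
presentations, and the vanishing of `Ext` along the chain.
-/

universe u

namespace Vale.Agent.Lib.P195

open CategoryTheory Abelian

variable {R : Type u} [Ring R]

/-- Vanishing of `Ext` into `R` gives vanishing into a finitely generated projective module. -/
theorem ext_projective_subsingleton (Z : ModuleCat.{u} R) (n : ℕ) (P : Type u) [AddCommGroup P]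
    [Module R P] [Module.Finite R P] [Module.Projective R P]
    (h : Subsingleton (Ext Z (ModuleCat.of R R) n)) :
    Subsingleton (Ext Z (ModuleCat.of R P) n) := by
  obtain ⟨t, f, g, -, -, hfg⟩ := Module.Finite.exists_comp_eq_id_of_projective R P
  have hpi := ext_pi_subsingleton Z n t h
  have key : ∀ x : Ext Z (ModuleCat.of R P) n, x = 0 := by
    intro x
    have hid : (𝟙 (ModuleCat.of R P)) = ModuleCat.ofHom g ≫ ModuleCat.ofHom f := by
      ext v
      have := LinearMap.congr_fun hfg v
      simpa using this.symm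
    have h1 : x = x.comp (Ext.mk₀ (𝟙 (ModuleCat.of R P))) (add_zero n) :=
      (Ext.comp_mk₀_id x).symm
    rw [h1, hid, ← Ext.mk₀_comp_mk₀, ← Ext.comp_assoc_of_third_deg_zero]
    have h0 : x.comp (Ext.mk₀ (ModuleCat.ofHom g)) (add_zero n) = 0 := Subsingleton.elim _ _
    rw [h0, Ext.zero_comp]
  exact ⟨fun a b => by rw [key a, key b]⟩

/-- A finitely generated module, bundled. -/
structure Stage (R : Type u) [Ring R] where
  /-- the underlying type -/
  X : Type u
  [acg : AddCommGroup X]
  [mod : Module R X]
  fin : Module.Finite R X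

attribute [instance] Stage.acg Stage.mod Stage.fin

section Chain

variable [IsArtinianRing R] [IsNoetherianRing R]

/-- A chosen minimal projective presentation. -/
noncomputable def Stage.pres (s : Stage R) : ProjPres R s.X :=
  Classical.choice exists_projPres

/-- The syzygy with respect to the chosen presentation. -/
noncomputable def Stage.next (s : Stage R) : Stage R where
  X := LinearMap.ker s.pres.π
  fin := inferInstance

/-- The chain of iterated syzygies. -/
noncomputable def chain (s : Stage R) (n : ℕ) : Stage R :=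
  Nat.rec s (fun _ t => t.next) n

theorem chain_van_M (s : Stage R)
    (hMM : ∀ n, 1 ≤ n → Subsingleton (Ext (ModuleCat.of R s.X) (ModuleCat.of R s.X) n))
    (hMR : ∀ n, 1 ≤ n → Subsingleton (Ext (ModuleCat.of R s.X) (ModuleCat.of R R) n)) :
    ∀ j n, j + 1 ≤ n →
      Subsingleton (Ext (ModuleCat.of R s.X) (ModuleCat.of R (chain s j).X) n) := by
  intro j
  induction j with
  | zero =>
    intro n hn
    exact hMM n hn
  | succ j ih =>
    intro n hn
    obtain ⟨m, rfl⟩ : ∃ m, n = m + 1 := ⟨n - 1, by omega⟩
    exact ext_ker_subsingleton_right (chain s j).pres.π (chain s j).pres.surj _ m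
      (ih m (by omega)) (ext_projective_subsingleton _ _ _ (hMR (m + 1) (by omega)))

theorem chain_van_R (s : Stage R)
    (hMR : ∀ n, 1 ≤ n → Subsingleton (Ext (ModuleCat.of R s.X) (ModuleCat.of R R) n)) :
    ∀ a n, 1 ≤ n →
      Subsingleton (Ext (ModuleCat.of R (chain s a).X) (ModuleCat.of R R) n) := by
  intro a
  induction a with
  | zero => exact hMR
  | succ a ih =>
    intro n hn
    exact ext_ker_subsingleton (chain s a).pres.π (chain s a).pres.surj _ n hn
      (ih (n + 1) (by omega))

theorem chain_van_N (s : Stage R)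
    (hMM : ∀ n, 1 ≤ n → Subsingleton (Ext (ModuleCat.of R s.X) (ModuleCat.of R s.X) n))
    (hMR : ∀ n, 1 ≤ n → Subsingleton (Ext (ModuleCat.of R s.X) (ModuleCat.of R R) n)) :
    ∀ a j n, 1 ≤ n → j + 1 ≤ n + a →
      Subsingleton (Ext (ModuleCat.of R (chain s a).X) (ModuleCat.of R (chain s j).X) n) := by
  intro a
  induction a with
  | zero =>
    intro j n _ h
    exact chain_van_M s hMM hMR j n (by omega)
  | succ a ih =>
    intro j n hn h
    exact ext_ker_subsingleton (chain s a).pres.π (chain s a).pres.surj _ n hn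
      (ih j (n + 1) (by omega) (by omega))

/-- Every map from the `(i+1)`-st syzygy to the `j`-th syzygy, `j ≤ i`, extends to the
projective cover of the `i`-th syzygy. -/
theorem chain_ext_N (s : Stage R)
    (hMM : ∀ n, 1 ≤ n → Subsingleton (Ext (ModuleCat.of R s.X) (ModuleCat.of R s.X) n))
    (hMR : ∀ n, 1 ≤ n → Subsingleton (Ext (ModuleCat.of R s.X) (ModuleCat.of R R) n))
    (i j : ℕ) (hij : j ≤ i)
    (f : LinearMap.ker (chain s i).pres.π →ₗ[R] (chain s j).X) :
    ∃ g : (chain s i).pres.P →ₗ[R] (chain s j).X,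
      ∀ v : LinearMap.ker (chain s i).pres.π, g v = f v :=
  extension_of_ext_one (chain s i).pres.π (chain s i).pres.surj
    (chain_van_N s hMM hMR i j 1 le_rfl (by omega)) f

theorem chain_ext_R (s : Stage R)
    (hMR : ∀ n, 1 ≤ n → Subsingleton (Ext (ModuleCat.of R s.X) (ModuleCat.of R R) n))
    (i : ℕ) (f : LinearMap.ker (chain s i).pres.π →ₗ[R] R) :
    ∃ g : (chain s i).pres.P →ₗ[R] R,
      ∀ v : LinearMap.ker (chain s i).pres.π, g v = f v :=
  extension_of_ext_one (chain s i).pres.π (chain s i).pres.surj
    (chain_van_R s hMR i 1 le_rfl) f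

theorem chain_not_projective
    (hJ : ∀ a ∈ Ring.jacobson R, ∀ b ∈ Ring.jacobson R, ∀ c ∈ Ring.jacobson R, a * b * c = 0)
    (s : Stage R)
    (hMR : ∀ n, 1 ≤ n → Subsingleton (Ext (ModuleCat.of R s.X) (ModuleCat.of R R) n))
    (h0 : ¬ Module.Projective R s.X) : ∀ i, ¬ Module.Projective R (chain s i).X := by
  intro i
  induction i with
  | zero => exact h0
  | succ i ih =>
    intro hproj
    apply ih
    have hK : Module.Projective R (LinearMap.ker (chain s i).pres.π) := hproj
    have hsub := (chain s i).pres.ker_subsingleton_of_projective hJ hK (chain_ext_R s hMR i)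
    apply (chain s i).pres.projective_of_injective
    rw [← LinearMap.ker_eq_bot]
    exact Submodule.eq_bot_of_subsingleton

theorem chain_radSub_ne_top
    (hJ : ∀ a ∈ Ring.jacobson R, ∀ b ∈ Ring.jacobson R, ∀ c ∈ Ring.jacobson R, a * b * c = 0)
    (s : Stage R)
    (hMR : ∀ n, 1 ≤ n → Subsingleton (Ext (ModuleCat.of R s.X) (ModuleCat.of R R) n))
    (h0 : ¬ Module.Projective R s.X) (i : ℕ) : radSub R (chain s i).X ≠ ⊤ := by
  intro h
  have hsub := subsingleton_of_radSub_eq_top hJ h
  exact chain_not_projective hJ s hMR h0 i inferInstance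

theorem chain_radSqKills
    (hJ : ∀ a ∈ Ring.jacobson R, ∀ b ∈ Ring.jacobson R, ∀ c ∈ Ring.jacobson R, a * b * c = 0)
    (s : Stage R) (j : ℕ) : RadSqKills R (chain s (j + 1)).X :=
  (chain s j).pres.radSqKills_ker hJ

end Chain

end Vale.Agent.Lib.P195
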