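import Mathlib
import Vale.Agent.Lib.P195.GChain

/-!
The vanishing of `Ext` along the chain of syzygies when `Ext^n(M, M)` and `Ext^n(M, R)` are only
known to vanish for `1 ≤ n ≤ B`, and a bound for the number of isomorphism classes of simple
modules.
-/

universe u

namespace Vale.Agent.Lib.P195

open CategoryTheory Abelian

variable {R : Type u} [Ring R]

section Chain

variable [IsArtinianRing R] [IsNoetherianRing R]

theorem chain_van_M_bdd (s : Stage R) (B : ℕ)
    (hMM : ∀ n, 1 ≤ n → n ≤ B →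
      Subsingleton (Ext (ModuleCat.of R s.X) (ModuleCat.of R s.X) n))
    (hMR : ∀ n, 1 ≤ n → n ≤ B → Subsingleton (Ext (ModuleCat.of R s.X) (ModuleCat.of R R) n)) :
    ∀ j n, j + 1 ≤ n → n ≤ B →
      Subsingleton (Ext (ModuleCat.of R s.X) (ModuleCat.of R (chain s j).X) n) := by
  intro j
  induction j with
  | zero =>
    intro n hn hB
    exact hMM n hn hB
  | succ j ih =>
    intro n hn hB
    obtain ⟨m, rfl⟩ : ∃ m, n = m + 1 := ⟨n - 1, by omega⟩
    exact ext_ker_subsingleton_right (chain s j).pres.π (chain s j).pres.surj _ m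
      (ih m (by omega) (by omega))
      (ext_projective_subsingleton _ _ _ (hMR (m + 1) (by omega) hB))

theorem chain_van_R_bdd (s : Stage R) (B : ℕ)
    (hMR : ∀ n, 1 ≤ n → n ≤ B → Subsingleton (Ext (ModuleCat.of R s.X) (ModuleCat.of R R) n)) :
    ∀ a n, 1 ≤ n → n + a ≤ B →
      Subsingleton (Ext (ModuleCat.of R (chain s a).X) (ModuleCat.of R R) n) := by
  intro a
  induction a with
  | zero =>
    intro n hn hB
    exact hMR n hn (by omega)
  | succ a ih =>
    intro n hn hB
    exact ext_ker_subsingleton (chain s a).pres.π (chain s a).pres.surj _ n hn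
      (ih (n + 1) (by omega) (by omega))

theorem chain_van_N_bdd (s : Stage R) (B : ℕ)
    (hMM : ∀ n, 1 ≤ n → n ≤ B →
      Subsingleton (Ext (ModuleCat.of R s.X) (ModuleCat.of R s.X) n))
    (hMR : ∀ n, 1 ≤ n → n ≤ B → Subsingleton (Ext (ModuleCat.of R s.X) (ModuleCat.of R R) n)) :
    ∀ a j n, 1 ≤ n → j + 1 ≤ n + a → n + a ≤ B →
      Subsingleton (Ext (ModuleCat.of R (chain s a).X) (ModuleCat.of R (chain s j).X) n) := by
  intro a
  induction a with
  | zero =>
    intro j n _ h hB
    exact chain_van_M_bdd s B hMM hMR j n (by omega) (by omega)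
  | succ a ih =>
    intro j n hn h hB
    exact ext_ker_subsingleton (chain s a).pres.π (chain s a).pres.surj _ n hn
      (ih j (n + 1) (by omega) (by omega) (by omega))

theorem chain_ext_N_bdd (s : Stage R) (B : ℕ)
    (hMM : ∀ n, 1 ≤ n → n ≤ B →
      Subsingleton (Ext (ModuleCat.of R s.X) (ModuleCat.of R s.X) n))
    (hMR : ∀ n, 1 ≤ n → n ≤ B → Subsingleton (Ext (ModuleCat.of R s.X) (ModuleCat.of R R) n))
    (i j : ℕ) (hij : j ≤ i) (hiB : i + 1 ≤ B)
    (f : LinearMap.ker (chain s i).pres.π →ₗ[R] (chain s j).X) :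
    ∃ g : (chain s i).pres.P →ₗ[R] (chain s j).X,
      ∀ v : LinearMap.ker (chain s i).pres.π, g v = f v :=
  extension_of_ext_one (chain s i).pres.π (chain s i).pres.surj
    (chain_van_N_bdd s B hMM hMR i j 1 le_rfl (by omega) (by omega)) f

theorem chain_ext_R_bdd (s : Stage R) (B : ℕ)
    (hMR : ∀ n, 1 ≤ n → n ≤ B → Subsingleton (Ext (ModuleCat.of R s.X) (ModuleCat.of R R) n))
    (i : ℕ) (hiB : i + 1 ≤ B) (f : LinearMap.ker (chain s i).pres.π →ₗ[R] R) :
    ∃ g : (chain s i).pres.P →ₗ[R] R,
      ∀ v : LinearMap.ker (chain s i).pres.π, g v = f v :=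
  extension_of_ext_one (chain s i).pres.π (chain s i).pres.surj
    (chain_van_R_bdd s B hMR i 1 le_rfl (by omega)) f

theorem chain_not_projective_bdd
    (hJ : ∀ a ∈ Ring.jacobson R, ∀ b ∈ Ring.jacobson R, ∀ c ∈ Ring.jacobson R, a * b * c = 0)
    (s : Stage R) (B : ℕ)
    (hMR : ∀ n, 1 ≤ n → n ≤ B → Subsingleton (Ext (ModuleCat.of R s.X) (ModuleCat.of R R) n))
    (h0 : ¬ Module.Projective R s.X) : ∀ i, i ≤ B → ¬ Module.Projective R (chain s i).X := by
  intro i
  induction i with
  | zero => exact fun _ => h0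
  | succ i ih =>
    intro hiB hproj
    apply ih (by omega)
    have hK : Module.Projective R (LinearMap.ker (chain s i).pres.π) := hproj
    have hsub := (chain s i).pres.ker_subsingleton_of_projective hJ hK
      (chain_ext_R_bdd s B hMR i (by omega))
    apply (chain s i).pres.projective_of_injective
    rw [← LinearMap.ker_eq_bot]
    exact Submodule.eq_bot_of_subsingleton

theorem chain_radSub_ne_top_bdd
    (hJ : ∀ a ∈ Ring.jacobson R, ∀ b ∈ Ring.jacobson R, ∀ c ∈ Ring.jacobson R, a * b * c = 0)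
    (s : Stage R) (B : ℕ)
    (hMR : ∀ n, 1 ≤ n → n ≤ B → Subsingleton (Ext (ModuleCat.of R s.X) (ModuleCat.of R R) n))
    (h0 : ¬ Module.Projective R s.X) (i : ℕ) (hiB : i ≤ B) :
    radSub R (chain s i).X ≠ ⊤ := by
  intro h
  have hsub := subsingleton_of_radSub_eq_top hJ h
  exact chain_not_projective_bdd hJ s B hMR h0 i hiB inferInstance

end Chain

/-- If every simple module is isomorphic to a member of a list of `s` modules, there are at most
`s` isotypic components of `R / J`. -/
theorem card_simpIdx_le [IsArtinianRing R] (s : ℕ) (S : Fin s → Type u)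
    [∀ i, AddCommGroup (S i)] [∀ i, Module R (S i)]
    (hS : ∀ (T : Type u) [AddCommGroup T] [Module R T], IsSimpleModule R T →
      ∃ i, Nonempty (T ≃ₗ[R] S i)) :
    Nat.card (SimpIdx R) ≤ s := by
  choose φ hφ using fun c : SimpIdx R => hS (simpRep R c) (simpRep_simple R c)
  have hinj : Function.Injective φ := by
    intro c c' h
    obtain ⟨e⟩ := hφ c
    obtain ⟨e'⟩ := hφ c'
    have e'' : simpRep R c ≃ₗ[R] simpRep R c' := e.trans ((LinearEquiv.cast (by rw [h])).trans e'.symm)
    apply Subtype.ext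
    rw [simpRep_spec R c, simpRep_spec R c']
    exact e''.isotypicComponent_eq
  have h := Nat.card_le_card_of_injective φ hinj
  simpa using h

end Vale.Agent.Lib.P195
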