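import Mathlib

/-!
A linear dependence lemma: in a sequence of rational vectors of bounded dimension, some term
together with its successor is a common rational combination of later terms and their successors.
-/

namespace Vale.Agent.Lib.P195

theorem exists_shift_relation {ι : Type*} [Finite ι] (x : ℕ → ι → ℚ) :
    ∃ (j m : ℕ) (γ : ℕ → ℚ), 1 ≤ j ∧
      (∀ c, x j c = ∑ l ∈ Finset.range m, γ l * x (j + 1 + l) c) ∧
      (∀ c, x (j + 1) c = ∑ l ∈ Finset.range m, γ l * x (j + 2 + l) c) := by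
  classical
  have := Fintype.ofFinite ι
  let D := Module.finrank ℚ (ι ⊕ ι → ℚ) + 1
  let W : ℕ → (ι ⊕ ι → ℚ) := fun n => Sum.elim (x (n + 1)) (x (n + 2))
  let w : Fin D → (ι ⊕ ι → ℚ) := fun a => W a
  have hdep : ¬ LinearIndependent ℚ w := by
    intro hli
    have h1 := hli.fintype_card_le_finrank
    rw [Fintype.card_fin] at h1
    omega
  obtain ⟨g, hg, a₀, ha₀⟩ := Fintype.not_linearIndependent_iff.mp hdep
  let G : ℕ → ℚ := fun n => if h : n < D then g ⟨n, h⟩ else 0
  have hsum : ∑ n ∈ Finset.range D, G n • W n = 0 := by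
    rw [← Fin.sum_univ_eq_sum_range (fun n => G n • W n) D, ← hg]
    refine Finset.sum_congr rfl fun a _ => ?_
    simp [G, w]
  have hex : ∃ n, G n ≠ 0 := ⟨a₀, by simpa [G] using ha₀⟩
  let n₀ := Nat.find hex
  have hn₀ : G n₀ ≠ 0 := Nat.find_spec hex
  have hlt : ∀ n < n₀, G n = 0 := fun n hn => by
    by_contra h
    exact Nat.find_min hex hn h
  have hn₀D : n₀ < D := by
    by_contra h
    exact hn₀ (by simp [G, h])
  have hsplit : ∑ n ∈ Finset.range D, G n • W n =
      G n₀ • W n₀ + ∑ l ∈ Finset.range (D - (n₀ + 1)), G (n₀ + 1 + l) • W (n₀ + 1 + l) := by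
    rw [Finset.range_eq_Ico, ← Finset.sum_Ico_consecutive _ (Nat.zero_le n₀) hn₀D.le]
    have h0 : ∑ n ∈ Finset.Ico 0 n₀, G n • W n = 0 := by
      refine Finset.sum_eq_zero fun n hn => ?_
      rw [hlt n (Finset.mem_Ico.mp hn).2, zero_smul]
    rw [h0, zero_add, Finset.sum_eq_sum_Ico_succ_bot hn₀D, Finset.sum_Ico_eq_sum_range]
  have hW : W n₀ = ∑ l ∈ Finset.range (D - (n₀ + 1)),
      (-G (n₀ + 1 + l) / G n₀) • W (n₀ + 1 + l) := by
    have h1 : G n₀ • W n₀ = -∑ l ∈ Finset.range (D - (n₀ + 1)),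
        G (n₀ + 1 + l) • W (n₀ + 1 + l) := by
      rw [hsplit] at hsum
      exact eq_neg_of_add_eq_zero_left hsum
    have h2 : W n₀ = (G n₀)⁻¹ • (G n₀ • W n₀) := by
      rw [smul_smul, inv_mul_cancel₀ hn₀, one_smul]
    rw [h2, h1, ← Finset.sum_neg_distrib, Finset.smul_sum]
    refine Finset.sum_congr rfl fun l _ => ?_
    rw [← neg_smul, smul_smul]
    congr 1
    field_simp
  refine ⟨n₀ + 1, D - (n₀ + 1), fun l => -G (n₀ + 1 + l) / G n₀, by omega, ?_, ?_⟩
  · intro c
    have h1 := congrFun hW (Sum.inl c)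
    simp only [W, Sum.elim_inl, Finset.sum_apply, Pi.smul_apply, smul_eq_mul] at h1
    rw [h1]
    refine Finset.sum_congr rfl fun l _ => ?_
    have : n₀ + 1 + l + 1 = n₀ + 1 + 1 + l := by omega
    rw [this]
  · intro c
    have h1 := congrFun hW (Sum.inr c)
    simp only [W, Sum.elim_inr, Finset.sum_apply, Pi.smul_apply, smul_eq_mul] at h1
    have h3 : n₀ + 1 + 1 = n₀ + 2 := by omega
    rw [h3, h1]
    refine Finset.sum_congr rfl fun l _ => ?_
    have : n₀ + 1 + l + 2 = n₀ + 1 + 2 + l := by omega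
    rw [this]

end Vale.Agent.Lib.P195
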