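import Mathlib
import Vale.Agent.Lib.P195.GChain
import Vale.Agent.Lib.P195.GLin

/-!
The Auslander-Reiten conjecture for Artin algebras with radical cube zero.
-/

universe u

namespace Vale.Agent.Lib.P195

open CategoryTheory Abelian

/-- The numerical contradiction: a linear relation between the top vectors of consecutive
syzygies, the counting relations and the counting inequality cannot hold together. -/
theorem shift_contra {ι : Type*} (x : ℕ → ι → ℕ∞) (hx : ∀ i c, x i c ≠ ⊤) (j m : ℕ) (γ : ℕ → ℚ)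
    (h1 : ∀ c, ((x j c).toNat : ℚ) = ∑ l ∈ Finset.range m, γ l * ((x (j + 1 + l) c).toNat : ℚ))
    (h2 : ∀ c, ((x (j + 1) c).toNat : ℚ) =
      ∑ l ∈ Finset.range m, γ l * ((x (j + 2 + l) c).toNat : ℚ))
    (F₁ F₂ : ℕ → ℕ∞) {n₁ n₂ : ℕ} (c₁ : Fin n₁ → ι) (c₂ : Fin n₂ → ι)
    (d₁ : ∀ i, F₁ i = ∑ s, x i (c₁ s)) (d₂ : ∀ i, F₂ i = ∑ s, x i (c₂ s))
    (hR : ∀ l, F₁ (j + l + 1) = F₂ (j + l + 1 + 1)) (hC : F₂ (j + 1) + 1 ≤ F₁ j) : False := by
  let y : ℕ → ι → ℕ := fun i c => (x i c).toNat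
  have hy : ∀ i c, x i c = (y i c : ℕ∞) := fun i c => (ENat.natCast_toNat (hx i c)).symm
  let f₁ : ℕ → ℕ := fun i => ∑ s, y i (c₁ s)
  let f₂ : ℕ → ℕ := fun i => ∑ s, y i (c₂ s)
  have hF₁ : ∀ i, F₁ i = (f₁ i : ℕ∞) := by
    intro i
    rw [d₁ i]
    simp only [f₁, hy, Nat.cast_sum]
  have hF₂ : ∀ i, F₂ i = (f₂ i : ℕ∞) := by
    intro i
    rw [d₂ i]
    simp only [f₂, hy, Nat.cast_sum]
  have hR' : ∀ l, f₁ (j + 1 + l) = f₂ (j + 2 + l) := by
    intro l
    have h := hR l
    rw [hF₁, hF₂] at h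
    have e1 : j + 1 + l = j + l + 1 := by omega
    have e2 : j + 2 + l = j + l + 1 + 1 := by omega
    rw [e1, e2]
    exact_mod_cast h
  have hC' : f₂ (j + 1) + 1 ≤ f₁ j := by
    rw [hF₁, hF₂] at hC
    exact_mod_cast hC
  have key : (f₁ j : ℚ) = (f₂ (j + 1) : ℚ) := by
    calc (f₁ j : ℚ) = ∑ s, (y j (c₁ s) : ℚ) := by simp only [f₁, Nat.cast_sum]
      _ = ∑ s, ∑ l ∈ Finset.range m, γ l * (y (j + 1 + l) (c₁ s) : ℚ) :=
        Finset.sum_congr rfl fun s _ => h1 (c₁ s)
      _ = ∑ l ∈ Finset.range m, γ l * (f₁ (j + 1 + l) : ℚ) := by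
        rw [Finset.sum_comm]
        refine Finset.sum_congr rfl fun l _ => ?_
        simp only [f₁, Nat.cast_sum, Finset.mul_sum]
      _ = ∑ l ∈ Finset.range m, γ l * (f₂ (j + 2 + l) : ℚ) := by simp only [hR']
      _ = ∑ s, ∑ l ∈ Finset.range m, γ l * (y (j + 2 + l) (c₂ s) : ℚ) := by
        rw [Finset.sum_comm]
        refine Finset.sum_congr rfl fun l _ => ?_
        simp only [f₂, Nat.cast_sum, Finset.mul_sum]
      _ = ∑ s, (y (j + 1) (c₂ s) : ℚ) := Finset.sum_congr rfl fun s _ => (h2 (c₂ s)).symm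
      _ = (f₂ (j + 1) : ℚ) := by simp only [f₂, Nat.cast_sum]
  have hkey : f₁ j = f₂ (j + 1) := by exact_mod_cast key
  omega

section Main

variable {k : Type*} [CommRing k] {R : Type u} [Ring R] [Algebra k R]

/-- The `k`-module structure on a bundled `R`-module induced by the algebra map. -/
noncomputable local instance Stage.modK (t : Stage R) : Module k t.X :=
  Module.compHom t.X (algebraMap k R)

local instance Stage.towerK (t : Stage R) : IsScalarTower k R t.X :=
  ⟨fun c r x => by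
    show (c • r) • x = algebraMap k R c • (r • x)
    rw [Algebra.smul_def, mul_smul]⟩

/-- If `R` is module-finite over a commutative Artinian ring `k` and `J^3 = 0`, then every
finitely generated `R`-module `M` with `Ext^i(M, M) = 0` and `Ext^i(M, R) = 0` for all `i ≥ 1`
is projective. -/
theorem ar_radCube (k : Type*) [CommRing k] [IsArtinianRing k]
    (R : Type u) [Ring R] [Algebra k R] [Module.Finite k R]
    (hJ : ∀ a ∈ Ring.jacobson R, ∀ b ∈ Ring.jacobson R, ∀ c ∈ Ring.jacobson R, a * b * c = 0)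
    (M : Type u) [AddCommGroup M] [Module R M] [Module.Finite R M]
    (hMM : ∀ i : ℕ, 1 ≤ i → Subsingleton (Ext (ModuleCat.of R M) (ModuleCat.of R M) i))
    (hMR : ∀ i : ℕ, 1 ≤ i → Subsingleton (Ext (ModuleCat.of R M) (ModuleCat.of R R) i)) :
    Module.Projective R M := by
  have hNoeth : IsNoetherianRing R := isNoetherian_of_tower k (inferInstance : IsNoetherian k R)
  have hArt : IsArtinianRing R := isArtinian_of_tower k (inferInstance : IsArtinian k R)
  by_contra hproj
  let s : Stage R := ⟨M, inferInstance⟩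
  have hMM' : ∀ n, 1 ≤ n →
      Subsingleton (Ext (ModuleCat.of R s.X) (ModuleCat.of R s.X) n) := hMM
  have hMR' : ∀ n, 1 ≤ n →
      Subsingleton (Ext (ModuleCat.of R s.X) (ModuleCat.of R R) n) := hMR
  have h0 : ¬ Module.Projective R s.X := hproj
  have hfinX : ∀ (X : Type u) [AddCommGroup X] [Module R X] [Module k X] [IsScalarTower k R X]
      [Module.Finite R X], Module.length k X ≠ ⊤ := by
    intro X _ _ _ _ _
    have : Module.Finite k X := Module.Finite.trans R X
    exact Module.length_ne_top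
  let x : ℕ → SimpIdx R → ℕ∞ := fun i c =>
    Module.length k ((chain s i).X →ₗ[R] simpRep R c)
  have hx : ∀ i c, x i c ≠ ⊤ := fun i c => length_hom_ne_top (hfinX _)
  obtain ⟨j, m, γ, hj, h1, h2⟩ := exists_shift_relation (fun i c => ((x i c).toNat : ℚ))
  obtain ⟨j', rfl⟩ : ∃ j', j = j' + 1 := ⟨j - 1, by omega⟩
  have hXsq : RadSqKills R (chain s (j' + 1)).X := chain_radSqKills hJ s j'
  obtain ⟨n₁, c₁, d₁⟩ := exists_simple_decomp (k := k)
    ((chain s (j' + 1)).X ⧸ radSub R (chain s (j' + 1)).X) radKills_quot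
  obtain ⟨n₂, c₂, d₂⟩ := exists_simple_decomp (k := k)
    (radSub R (chain s (j' + 1)).X) (radKills_radSub hXsq)
  refine shift_contra x hx (j' + 1) m γ h1 h2
    (fun i => Module.length k
      ((chain s i).X →ₗ[R] (chain s (j' + 1)).X ⧸ radSub R (chain s (j' + 1)).X))
    (fun i => Module.length k ((chain s i).X →ₗ[R] radSub R (chain s (j' + 1)).X))
    c₁ c₂ (fun i => d₁ (chain s i).X) (fun i => d₂ (chain s i).X) ?_ ?_
  · intro l
    exact relG (k := k) hXsq (chain s (j' + 1 + l + 1)).pres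
      ((chain s (j' + 1 + l)).pres.ker_map_mem_radSub
        (chain_ext_N s hMM' hMR' (j' + 1 + l) (j' + 1) (by omega)))
      (chain_ext_N s hMM' hMR' (j' + 1 + l + 1) (j' + 1) (by omega))
      (length_hom_ne_top (hfinX _))
  · exact countG (k := k) hXsq (chain s (j' + 1)).pres
      (chain_radSub_ne_top hJ s hMR' h0 (j' + 1))
      (chain_ext_N s hMM' hMR' (j' + 1) (j' + 1) le_rfl) (length_hom_ne_top (hfinX _))

end Main

end Vale.Agent.Lib.P195
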