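import Mathlib
import Vale.Agent.Lib.P195.Core

/-!
The Auslander-Reiten conjecture for local Artin algebras with radical cube zero.
-/

universe u

namespace Vale.Agent.Lib.P195

open CategoryTheory Abelian

theorem enat_div (Λ j jj δ : ℕ∞) (a b : ℕ) (h1 : Λ = j + δ) (h2 : j = jj + a * δ)
    (h3 : jj = b * δ) : Λ = ((b + a + 1 : ℕ) : ℕ∞) * δ := by
  subst h3 h2 h1
  push_cast
  ring

/-- If `R` is a local ring, module-finite over a commutative Artinian ring `k`, with
`J^3 = 0`, and `M` is a finitely generated module with `Ext^i(M, M) = 0` for `1 ≤ i ≤ 4` and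
`Ext^i(M, R) = 0` for `1 ≤ i ≤ 5`, then `M` is projective. -/
theorem ar_local_radCube_range (k : Type*) [CommRing k] [IsArtinianRing k]
    (R : Type u) [Ring R] [Algebra k R] [Module.Finite k R] [IsLocalRing R]
    (hJ : ∀ a ∈ Ring.jacobson R, ∀ b ∈ Ring.jacobson R, ∀ c ∈ Ring.jacobson R, a * b * c = 0)
    (M : Type u) [AddCommGroup M] [Module R M] [Module.Finite R M]
    (hMM : ∀ i : ℕ, 1 ≤ i → i ≤ 4 →
      Subsingleton (Ext (ModuleCat.of R M) (ModuleCat.of R M) i))
    (hMR : ∀ i : ℕ, 1 ≤ i → i ≤ 5 →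
      Subsingleton (Ext (ModuleCat.of R M) (ModuleCat.of R R) i)) :
    Module.Projective R M := by
  have hNoeth : IsNoetherianRing R := isNoetherian_of_tower k (inferInstance : IsNoetherian k R)
  have hfin : Module.length k R ≠ ⊤ := Module.length_ne_top
  have hdiv : ∃ L : ℕ, Module.length k R = L * Module.length k (R ⧸ Ring.jacobson R) := by
    obtain ⟨qJ⟩ := exists_minPres (R := R) (N := Ring.jacobson R)
    obtain ⟨qJJ⟩ := exists_minPres (R := R) (N := radSub R (Ring.jacobson R))
    have hJsq : RadSqKills R (Ring.jacobson R) := by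
      intro a ha b hb x
      apply Subtype.ext
      simp only [Submodule.coe_smul, smul_eq_mul, ZeroMemClass.coe_zero]
      rw [← mul_assoc]
      exact hJ a ha b hb x.1 x.2
    exact ⟨_, enat_div _ _ _ _ _ _ (length_eq_sub_add_quot (k := k) (Ring.jacobson R))
      (qJ.length_eq_radSub_add (k := k))
      (qJJ.length_of_radKills (k := k) (radKills_radSub hJsq))⟩
  obtain ⟨p0⟩ := exists_minPres (R := R) (N := M)
  obtain ⟨p1⟩ := exists_minPres (R := R) (N := LinearMap.ker p0.π)
  obtain ⟨p2⟩ := exists_minPres (R := R) (N := LinearMap.ker p1.π)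
  obtain ⟨p3⟩ := exists_minPres (R := R) (N := LinearMap.ker p2.π)
  obtain ⟨p4⟩ := exists_minPres (R := R) (N := LinearMap.ker p3.π)
  obtain ⟨p5⟩ := exists_minPres (R := R) (N := LinearMap.ker p4.π)
  obtain ⟨q⟩ := exists_minPres (R := R) (N := radSub R (LinearMap.ker p0.π))
  exact core (k := k) hJ hfin hdiv p0 p1 p2 p3 p4 p5 q hMM hMR

end Vale.Agent.Lib.P195
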