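import Mathlib
import Vale.Agent.Lib.P195.GChain

/-!
Modules whose syzygies, from some point on, are finite direct sums of copies of finitely many
fixed modules: vanishing of `Ext^i(M, M)` and `Ext^i(M, R)` in a finite range forces `M` to be
projective.  The argument is a pigeonhole count on the degrees `J` with `Ext^J(M, Z_J) ≠ 0`.
-/

universe u

namespace Vale.Agent.Lib.P195

open CategoryTheory Abelian

variable {R : Type u} [Ring R]

section Retract

variable {A B : Type u} [AddCommGroup A] [Module R A] [AddCommGroup B] [Module R B]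

/-- `Ext` into a retract vanishes if `Ext` into the ambient module does. -/
theorem ext_retract_right (i : B →ₗ[R] A) (p : A →ₗ[R] B) (hpi : p ∘ₗ i = LinearMap.id)
    (Z : ModuleCat.{u} R) (n : ℕ) (h : Subsingleton (Ext Z (ModuleCat.of R A) n)) :
    Subsingleton (Ext Z (ModuleCat.of R B) n) := by
  have key : ∀ x : Ext Z (ModuleCat.of R B) n, x = 0 := by
    intro x
    have hid : (𝟙 (ModuleCat.of R B)) = ModuleCat.ofHom i ≫ ModuleCat.ofHom p := by
      ext v
      have := LinearMap.congr_fun hpi v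
      simpa using this.symm
    have h1 : x = x.comp (Ext.mk₀ (𝟙 (ModuleCat.of R B))) (add_zero n) :=
      (Ext.comp_mk₀_id x).symm
    rw [h1, hid, ← Ext.mk₀_comp_mk₀, ← Ext.comp_assoc_of_third_deg_zero]
    have h0 : x.comp (Ext.mk₀ (ModuleCat.ofHom i)) (add_zero n) = 0 := Subsingleton.elim _ _
    rw [h0, Ext.zero_comp]
  exact ⟨fun a b => by rw [key a, key b]⟩

/-- Vanishing of `Ext` into a module passes to an isomorphic module. -/
theorem ext_equiv_right (e : A ≃ₗ[R] B) (Z : ModuleCat.{u} R) (n : ℕ)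
    (h : Subsingleton (Ext Z (ModuleCat.of R A) n)) :
    Subsingleton (Ext Z (ModuleCat.of R B) n) :=
  ext_retract_right e.symm.toLinearMap e.toLinearMap (by ext v; simp) Z n h

end Retract

section Shift

variable {P X : Type u} [AddCommGroup P] [Module R P] [AddCommGroup X] [Module R X]

/-- Converse shift in the second variable: if `Ext^n(Z, P) = 0` and `Ext^(n+1)(Z, ker π) = 0`
then `Ext^n(Z, X) = 0`. -/
theorem ext_of_ker_subsingleton_right (π : P →ₗ[R] X) (hπ : Function.Surjective π)
    (Z : ModuleCat.{u} R) (n : ℕ)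
    (h₁ : Subsingleton (Ext Z (ModuleCat.of R P) n))
    (h₂ : Subsingleton (Ext Z (ModuleCat.of R (LinearMap.ker π)) (n + 1))) :
    Subsingleton (Ext Z (ModuleCat.of R X) n) := by
  have hS := LinearMap.shortExact_shortComplexKer hπ
  have key : ∀ x : Ext Z (ModuleCat.of R X) n, x = 0 := by
    intro x
    obtain ⟨x₂, hx₂⟩ := Ext.covariant_sequence_exact₃ Z hS x rfl (Subsingleton.elim _ _)
    have h0 : x₂ = 0 := Subsingleton.elim _ _
    rw [← hx₂, h0, Ext.zero_comp]
  exact ⟨fun a b => by rw [key a, key b]⟩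

/-- If `P` is projective, `π : P → X` is onto and `Ext^1(X, ker π) = 0`, then `X` is
projective. -/
theorem projective_of_ext_one_ker [Module.Projective R P] (π : P →ₗ[R] X)
    (hπ : Function.Surjective π)
    (h : Subsingleton (Ext (ModuleCat.of R X) (ModuleCat.of R (LinearMap.ker π)) 1)) :
    Module.Projective R X := by
  obtain ⟨g, hg⟩ := extension_of_ext_one π hπ h LinearMap.id
  have hex : Function.Exact (LinearMap.ker π).subtype π := LinearMap.exact_subtype_ker_map π
  have h2 : ∃ l, l ∘ₗ (LinearMap.ker π).subtype = LinearMap.id := by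
    refine ⟨g, ?_⟩
    ext v
    have := hg v
    simpa using congrArg Subtype.val this
  obtain ⟨s, hs⟩ := ((hex.split_tfae (Submodule.injective_subtype _) hπ).out 1 0).mp h2
  exact Module.Projective.of_split s π hs

end Shift

section Family

/-- Vanishing of `Ext` into each factor gives vanishing into a finite product. -/
theorem ext_pi_family (Z : ModuleCat.{u} R) (n : ℕ) {ι : Type} [Fintype ι] [DecidableEq ι]
    (W : ι → Type u) [∀ i, AddCommGroup (W i)] [∀ i, Module R (W i)]
    (h : ∀ i, Subsingleton (Ext Z (ModuleCat.of R (W i)) n)) :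
    Subsingleton (Ext Z (ModuleCat.of R ((i : ι) → W i)) n) := by
  have key : ∀ x : Ext Z (ModuleCat.of R ((i : ι) → W i)) n, x = 0 := by
    intro x
    have hid : (𝟙 (ModuleCat.of R ((i : ι) → W i))) =
        ∑ i : ι, (ModuleCat.ofHom (LinearMap.proj i : ((i : ι) → W i) →ₗ[R] W i)) ≫
          ModuleCat.ofHom (LinearMap.single R W i) := by
      ext v
      simp
    have h1 : x = x.comp (Ext.mk₀ (𝟙 (ModuleCat.of R ((i : ι) → W i)))) (add_zero n) :=
      (Ext.comp_mk₀_id x).symm
    rw [h1, hid, Ext.mk₀_sum, Ext.comp_sum]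
    apply Finset.sum_eq_zero
    intro i _
    rw [← Ext.mk₀_comp_mk₀, ← Ext.comp_assoc_of_third_deg_zero]
    have h0 : x.comp (Ext.mk₀ (ModuleCat.ofHom (LinearMap.proj i : ((i : ι) → W i) →ₗ[R] W i)))
        (add_zero n) = 0 := Subsingleton.elim _ _
    rw [h0, Ext.zero_comp]
  exact ⟨fun a b => by rw [key a, key b]⟩

variable {r : ℕ} (V : Fin r → Type u) [∀ i, AddCommGroup (V i)] [∀ i, Module R (V i)]

/-- If `Ext` into a finite direct sum of copies of the `V i` does not vanish, it does not vanish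
into some `V i` that occurs in the sum. -/
theorem exists_component_of_not_subsingleton (Z : ModuleCat.{u} R) (n : ℕ) (m : Fin r → ℕ)
    (h : ¬ Subsingleton (Ext Z (ModuleCat.of R ((i : Fin r) → Fin (m i) → V i)) n)) :
    ∃ i, m i ≠ 0 ∧ ¬ Subsingleton (Ext Z (ModuleCat.of R (V i)) n) := by
  by_contra hne
  push Not at hne
  apply h
  refine ext_pi_family Z n (fun i => Fin (m i) → V i) (fun i => ?_)
  refine ext_pi_family Z n (fun _ : Fin (m i) => V i) (fun k => ?_)
  exact hne i (Nat.pos_iff_ne_zero.mp (Fin.pos k))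

/-- Vanishing of `Ext` into a finite direct sum of copies of the `V i` gives vanishing into every
`V i` that occurs in the sum. -/
theorem ext_component_subsingleton (Z : ModuleCat.{u} R) (n : ℕ) (m : Fin r → ℕ) (i₀ : Fin r)
    (hi : m i₀ ≠ 0)
    (h : Subsingleton (Ext Z (ModuleCat.of R ((i : Fin r) → Fin (m i) → V i)) n)) :
    Subsingleton (Ext Z (ModuleCat.of R (V i₀)) n) := by
  let k₀ : Fin (m i₀) := ⟨0, Nat.pos_of_ne_zero hi⟩
  refine ext_retract_right
    ((LinearMap.single R (fun i : Fin r => Fin (m i) → V i) i₀) ∘ₗ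
      (LinearMap.single R (fun _ : Fin (m i₀) => V i₀) k₀))
    ((LinearMap.proj k₀ : (Fin (m i₀) → V i₀) →ₗ[R] V i₀) ∘ₗ
      (LinearMap.proj i₀ : ((i : Fin r) → Fin (m i) → V i) →ₗ[R] (Fin (m i₀) → V i₀)))
    ?_ Z n h
  ext v
  simp

end Family

section Main

/-- Let `0 → Z (j+1) → P j → Z j → 0` be exact with `P j` finitely generated projective and
`Z 0 ≅ M`.  If every `Z j` with `j ≥ n` is a finite direct sum of copies of `r` fixed modules,
`Ext^i(M, M) = 0` for `1 ≤ i ≤ r` and `Ext^i(M, R) = 0` for `1 ≤ i ≤ n + r + 1`, then `M` is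
projective. -/
theorem projective_of_syzygy_finite
    (M : Type u) [AddCommGroup M] [Module R M]
    (Z : ℕ → Type u) [∀ j, AddCommGroup (Z j)] [∀ j, Module R (Z j)]
    (P : ℕ → Type u) [∀ j, AddCommGroup (P j)] [∀ j, Module R (P j)]
    [∀ j, Module.Finite R (P j)] [∀ j, Module.Projective R (P j)]
    (e : Z 0 ≃ₗ[R] M)
    (ι : ∀ j, Z (j + 1) →ₗ[R] P j) (π : ∀ j, P j →ₗ[R] Z j)
    (hι : ∀ j, Function.Injective (ι j)) (hπ : ∀ j, Function.Surjective (π j))
    (hex : ∀ j, LinearMap.range (ι j) = LinearMap.ker (π j))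
    (r n : ℕ) (V : Fin r → Type u) [∀ i, AddCommGroup (V i)] [∀ i, Module R (V i)]
    (hV : ∀ j, n ≤ j → ∃ m : Fin r → ℕ,
      Nonempty (Z j ≃ₗ[R] ((i : Fin r) → Fin (m i) → V i)))
    (hMM : ∀ i : ℕ, 1 ≤ i → i ≤ r →
      Subsingleton (Ext (ModuleCat.of R M) (ModuleCat.of R M) i))
    (hMR : ∀ i : ℕ, 1 ≤ i → i ≤ n + r + 1 →
      Subsingleton (Ext (ModuleCat.of R M) (ModuleCat.of R R) i)) :
    Module.Projective R M := by
  by_contra hproj
  -- the kernels
  have eK : ∀ j, Nonempty (Z (j + 1) ≃ₗ[R] LinearMap.ker (π j)) := fun j =>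
    ⟨(LinearEquiv.ofInjective (ι j) (hι j)).trans (LinearEquiv.ofEq _ _ (hex j))⟩
  have hMP : ∀ j i : ℕ, 1 ≤ i → i ≤ n + r + 1 →
      Subsingleton (Ext (ModuleCat.of R M) (ModuleCat.of R (P j)) i) := fun j i h1 h2 =>
    ext_projective_subsingleton _ _ _ (hMR i h1 h2)
  -- vanishing
  have hvan : ∀ j i : ℕ, j + 1 ≤ i → i ≤ n + r + 1 → i ≤ j + r →
      Subsingleton (Ext (ModuleCat.of R M) (ModuleCat.of R (Z j)) i) := by
    intro j
    induction j with
    | zero =>
      intro i h1 _ h3
      exact ext_equiv_right e.symm _ i (hMM i h1 (by omega))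
    | succ j ih =>
      intro i h1 h2 h3
      obtain ⟨m, rfl⟩ : ∃ m, i = m + 1 := ⟨i - 1, by omega⟩
      obtain ⟨ek⟩ := eK j
      have hk := ext_ker_subsingleton_right (π j) (hπ j) (ModuleCat.of R M) m
        (ih m (by omega) (by omega) (by omega)) (hMP j (m + 1) (by omega) h2)
      exact ext_equiv_right ek.symm _ (m + 1) hk
  -- non-vanishing
  have hnon : ∀ J : ℕ, 1 ≤ J → J ≤ n + r + 1 →
      ¬ Subsingleton (Ext (ModuleCat.of R M) (ModuleCat.of R (Z J)) J) := by
    intro J hJ
    induction J, hJ using Nat.le_induction with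
    | base =>
      intro _ hsub
      apply hproj
      have hπ' : Function.Surjective (e.toLinearMap ∘ₗ π 0) := e.surjective.comp (hπ 0)
      have hker : LinearMap.ker (e.toLinearMap ∘ₗ π 0) = LinearMap.ker (π 0) := by
        ext x
        simp
      obtain ⟨ek⟩ := eK 0
      have hk : Subsingleton (Ext (ModuleCat.of R M)
          (ModuleCat.of R (LinearMap.ker (e.toLinearMap ∘ₗ π 0))) 1) :=
        ext_equiv_right (ek.trans (LinearEquiv.ofEq _ _ hker.symm)) _ 1 hsub
      exact projective_of_ext_one_ker (e.toLinearMap ∘ₗ π 0) hπ' hk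
    | succ J hJ ih =>
      intro hJ2 hsub
      apply ih (by omega)
      obtain ⟨ek⟩ := eK J
      exact ext_of_ker_subsingleton_right (π J) (hπ J) (ModuleCat.of R M) J
        (hMP J J hJ (by omega)) (ext_equiv_right ek _ (J + 1) hsub)
  -- the finite family
  have hsel : ∀ k : Fin (r + 1), ∃ (m : Fin r → ℕ) (i : Fin r),
      Nonempty (Z (n + 1 + k) ≃ₗ[R] ((i : Fin r) → Fin (m i) → V i)) ∧ m i ≠ 0 ∧
      ¬ Subsingleton (Ext (ModuleCat.of R M) (ModuleCat.of R (V i)) (n + 1 + k)) := by
    intro k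
    obtain ⟨m, ⟨em⟩⟩ := hV (n + 1 + k) (by omega)
    have h1 : ¬ Subsingleton (Ext (ModuleCat.of R M)
        (ModuleCat.of R ((i : Fin r) → Fin (m i) → V i)) (n + 1 + k)) := by
      intro hsub
      exact hnon (n + 1 + k) (by omega) (by have := k.isLt; omega)
        (ext_equiv_right em.symm _ _ hsub)
    obtain ⟨i, hi1, hi2⟩ := exists_component_of_not_subsingleton V _ _ m h1
    exact ⟨m, i, ⟨em⟩, hi1, hi2⟩
  choose m i hem hm hne using hsel
  obtain ⟨x, y, hxy, hfxy⟩ := Fintype.exists_ne_map_eq_of_card_lt i (by simp)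
  -- arrange x < y
  have key : ∀ x y : Fin (r + 1), x < y → i x = i y → False := by
    intro x y hlt hixy
    obtain ⟨em⟩ := hem x
    have hx := x.isLt
    have hy := y.isLt
    have hlt' : (x : ℕ) < (y : ℕ) := hlt
    have h0 := hvan (n + 1 + x) (n + 1 + y) (by omega) (by omega) (by omega)
    have h1 := ext_equiv_right em _ _ h0
    have h2 := ext_component_subsingleton V _ _ (m x) (i x) (hm x) h1
    rw [hixy] at h2
    exact hne y h2
  rcases lt_or_gt_of_ne hxy with h | h
  · exact key x y h hfxy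
  · exact key y x h hfxy.symm

end Main

section Algebra

/-- Artin algebras that are syzygy-finite from degree `n` on: if for every exact chain
`0 → Z (j+1) → P j → Z j → 0` with finitely generated projective `P j` all the `Z j`, `j ≥ n`,
are finite direct sums of copies of `r` fixed modules, then every finitely generated module `M`
with `Ext^i(M, M) = 0` for `1 ≤ i ≤ r` and `Ext^i(M, R) = 0` for `1 ≤ i ≤ n + r + 1` is
projective. -/
theorem ar_syzygy_finite (k : Type*) [CommRing k] [IsArtinianRing k]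
    (R : Type u) [Ring R] [Algebra k R] [Module.Finite k R]
    (r n : ℕ) (V : Fin r → Type u) [∀ i, AddCommGroup (V i)] [∀ i, Module R (V i)]
    (hV : ∀ (Z : ℕ → Type u) [∀ j, AddCommGroup (Z j)] [∀ j, Module R (Z j)]
      (P : ℕ → Type u) [∀ j, AddCommGroup (P j)] [∀ j, Module R (P j)]
      [∀ j, Module.Finite R (P j)] [∀ j, Module.Projective R (P j)]
      (ι : ∀ j, Z (j + 1) →ₗ[R] P j) (π : ∀ j, P j →ₗ[R] Z j),
      (∀ j, Function.Injective (ι j)) → (∀ j, Function.Surjective (π j)) →
      (∀ j, LinearMap.range (ι j) = LinearMap.ker (π j)) →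
      ∀ j, n ≤ j → ∃ m : Fin r → ℕ, Nonempty (Z j ≃ₗ[R] ((i : Fin r) → Fin (m i) → V i)))
    (M : Type u) [AddCommGroup M] [Module R M] [Module.Finite R M]
    (hMM : ∀ i : ℕ, 1 ≤ i → i ≤ r →
      Subsingleton (Ext (ModuleCat.of R M) (ModuleCat.of R M) i))
    (hMR : ∀ i : ℕ, 1 ≤ i → i ≤ n + r + 1 →
      Subsingleton (Ext (ModuleCat.of R M) (ModuleCat.of R R) i)) :
    Module.Projective R M := by
  have hNoeth : IsNoetherianRing R := isNoetherian_of_tower k (inferInstance : IsNoetherian k R)
  have hArt : IsArtinianRing R := isArtinian_of_tower k (inferInstance : IsArtinian k R)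
  let t : Stage R := ⟨M, inferInstance⟩
  have hinj : ∀ j, Function.Injective
      ((LinearMap.ker (chain t j).pres.π).subtype : (chain t (j + 1)).X →ₗ[R] (chain t j).pres.P) :=
    fun j => Submodule.injective_subtype _
  have hsurj : ∀ j, Function.Surjective (chain t j).pres.π := fun j => (chain t j).pres.surj
  have hex : ∀ j, LinearMap.range
      ((LinearMap.ker (chain t j).pres.π).subtype : (chain t (j + 1)).X →ₗ[R] (chain t j).pres.P) =
      LinearMap.ker (chain t j).pres.π := fun j => Submodule.range_subtype _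
  exact projective_of_syzygy_finite M (fun j => (chain t j).X) (fun j => (chain t j).pres.P)
    (LinearEquiv.refl R M) (fun j => (LinearMap.ker (chain t j).pres.π).subtype)
    (fun j => (chain t j).pres.π) hinj hsurj hex r n V
    (hV (fun j => (chain t j).X) (fun j => (chain t j).pres.P)
      (fun j => (LinearMap.ker (chain t j).pres.π).subtype) (fun j => (chain t j).pres.π)
      hinj hsurj hex) hMM hMR

end Algebra

end Vale.Agent.Lib.P195
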